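import Vale.Agent.P121.Defs

/-!
The measure-theoretic core: two contact sheets sharing their first point rule out Monge plans.
-/

namespace Vale.Agent.P121

open MeasureTheory Set
open scoped ENNReal

/-- Index triples of the two contact sheets. -/
def Tri (j k l : Fin 5) : Prop :=
  ({j, k, l} : Finset (Fin 5)) = {0, 1, 2} ∨ ({j, k, l} : Finset (Fin 5)) = {0, 3, 4}

instance (j k l : Fin 5) : Decidable (Tri j k l) := by unfold Tri; infer_instance

variable {V Ω : Type*} [MeasurableSpace V] [MeasurableSpace Ω]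

/-- The marginal measure. -/
noncomputable def mix (ν : Measure Ω) (P : Fin 5 × Ω → V) : Measure V :=
  (6 : ℝ≥0∞)⁻¹ • (ν.map (fun ω => P (0, ω)) + ν.map (fun ω => P (0, ω))
    + ν.map (fun ω => P (1, ω)) + ν.map (fun ω => P (2, ω))
    + ν.map (fun ω => P (3, ω)) + ν.map (fun ω => P (4, ω)))

/-- One sheet of the optimal plan. -/
noncomputable def sheet (ν : Measure Ω) (P : Fin 5 × Ω → V) (j k l : Fin 5) :
    Measure (V × V × V) :=
  ν.map (fun ω => (P (j, ω), P (k, ω), P (l, ω)))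

/-- The optimal plan. -/
noncomputable def plan (ν : Measure Ω) (P : Fin 5 × Ω → V) : Measure (V × V × V) :=
  (6 : ℝ≥0∞)⁻¹ • (sheet ν P 0 1 2 + sheet ν P 1 2 0 + sheet ν P 2 0 1
    + sheet ν P 0 3 4 + sheet ν P 3 4 0 + sheet ν P 4 0 3)

theorem meas_slice {P : Fin 5 × Ω → V} (hP : Measurable P) (j : Fin 5) :
    Measurable (fun ω => P (j, ω)) := hP.comp measurable_prodMk_left

theorem meas_triple {P : Fin 5 × Ω → V} (hP : Measurable P) (j k l : Fin 5) :
    Measurable (fun ω => (P (j, ω), P (k, ω), P (l, ω))) :=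
  (meas_slice hP j).prodMk ((meas_slice hP k).prodMk (meas_slice hP l))

theorem six_mul : (6 : ℝ≥0∞)⁻¹ * (1 + 1 + 1 + 1 + 1 + 1) = 1 := by
  have : (1 + 1 + 1 + 1 + 1 + 1 : ℝ≥0∞) = 6 := by norm_num
  rw [this]
  exact ENNReal.inv_mul_cancel (by norm_num) (by norm_num)

theorem mix_prob (ν : Measure Ω) [IsProbabilityMeasure ν] {P : Fin 5 × Ω → V}
    (hP : Measurable P) : IsProbabilityMeasure (mix ν P) := by
  constructor
  simp only [mix, Measure.smul_apply, Measure.add_apply, smul_eq_mul,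
    Measure.map_apply (meas_slice hP _) MeasurableSet.univ, preimage_univ, measure_univ]
  exact six_mul

theorem plan_mem (ν : Measure Ω) [IsProbabilityMeasure ν] {P : Fin 5 × Ω → V}
    (hP : Measurable P) : plan ν P ∈ couplings (mix ν P) := by
  have m1 : Measurable (fun q : V × V × V => q.1) := measurable_fst
  have m2 : Measurable (fun q : V × V × V => q.2.1) := measurable_snd.fst
  have m3 : Measurable (fun q : V × V × V => q.2.2) := measurable_snd.snd
  refine ⟨⟨?_⟩, ?_, ?_, ?_⟩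
  · simp only [plan, sheet, Measure.smul_apply, Measure.add_apply, smul_eq_mul,
      Measure.map_apply (meas_triple hP _ _ _) MeasurableSet.univ, preimage_univ, measure_univ]
    exact six_mul
  · simp only [plan, mix, sheet, Measure.map_smul, Measure.map_add _ _ m1,
      Measure.map_map m1 (meas_triple hP _ _ _), Function.comp_def]
    congr 1
    abel
  · simp only [plan, mix, sheet, Measure.map_smul, Measure.map_add _ _ m2,
      Measure.map_map m2 (meas_triple hP _ _ _), Function.comp_def]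
    congr 1
    abel
  · simp only [plan, mix, sheet, Measure.map_smul, Measure.map_add _ _ m3,
      Measure.map_map m3 (meas_triple hP _ _ _), Function.comp_def]
    congr 1
    abel

theorem mix_ae_range (ν : Measure Ω) {P : Fin 5 × Ω → V} (hP : MeasurableEmbedding P) :
    ∀ᵐ x ∂(mix ν P), x ∈ range P := by
  rw [ae_iff]
  have hm : MeasurableSet {x | ¬ x ∈ range P} := hP.measurableSet_range.compl
  have h0 : ∀ j : Fin 5, (fun ω => P (j, ω)) ⁻¹' {x | ¬ x ∈ range P} = ∅ := by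
    intro j
    ext ω
    simp
  simp only [mix, Measure.smul_apply, Measure.add_apply, smul_eq_mul,
    Measure.map_apply (meas_slice hP.measurable _) hm, h0, measure_empty, add_zero, mul_zero]

theorem meas_image {P : Fin 5 × Ω → V} (hP : MeasurableEmbedding P) (j : Fin 5) {A : Set Ω}
    (hA : MeasurableSet A) : MeasurableSet (P '' ({j} ×ˢ A)) :=
  hP.measurableSet_image.mpr ((measurableSet_singleton j).prod hA)

theorem mix_image (ν : Measure Ω) {P : Fin 5 × Ω → V} (hP : MeasurableEmbedding P) (j : Fin 5)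
    (hj : j ≠ 0) {A : Set Ω} (hA : MeasurableSet A) :
    mix ν P (P '' ({j} ×ˢ A)) = 6⁻¹ * ν A := by
  have hm := meas_image hP j hA
  have h0 : ∀ k : Fin 5, (fun ω => P (k, ω)) ⁻¹' (P '' ({j} ×ˢ A))
      = if k = j then A else ∅ := by
    intro k
    ext ω
    simp only [mem_preimage, hP.injective.mem_set_image, mem_prod, mem_singleton_iff]
    split_ifs with h <;> simp [h]
  simp only [mix, Measure.smul_apply, Measure.add_apply, smul_eq_mul,
    Measure.map_apply (meas_slice hP.measurable _) hm, h0]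
  congr 1
  fin_cases j
  · exact absurd rfl hj
  all_goals simp +decide

/-- The mass count. -/
theorem count_aux (ν : Measure Ω) [IsProbabilityMeasure ν] {P : Fin 5 × Ω → V}
    (hP : MeasurableEmbedding P) {T₂ T₃ : V → V} (h₂ : Measurable T₂) (h₃ : Measurable T₃)
    (hT₂ : (mix ν P).map T₂ = mix ν P) (hT₃ : (mix ν P).map T₃ = mix ν P)
    (a b : Fin 5) (ha : a ≠ 0) (hb : b ≠ 0) {A : Set Ω} (hA : MeasurableSet A)
    (h : ∀ᵐ x ∂(mix ν P), (T₂ x ∈ P '' ({a} ×ˢ A) → x ∈ P '' ({b} ×ˢ A) ∧ T₃ x ∉ P '' ({a} ×ˢ A))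
      ∧ (T₃ x ∈ P '' ({a} ×ˢ A) → x ∈ P '' ({b} ×ˢ A))) : ν A = 0 := by
  set μ := mix ν P with hμ
  set S := P '' ({a} ×ˢ A) with hS
  have hSm : MeasurableSet S := meas_image hP a hA
  have e2 : μ (T₂ ⁻¹' S) = 6⁻¹ * ν A := by
    rw [← Measure.map_apply h₂ hSm, hT₂]; exact mix_image ν hP a ha hA
  have e3 : μ (T₃ ⁻¹' S) = 6⁻¹ * ν A := by
    rw [← Measure.map_apply h₃ hSm, hT₃]; exact mix_image ν hP a ha hA
  have hdisj : AEDisjoint μ (T₂ ⁻¹' S) (T₃ ⁻¹' S) := by
    rw [AEDisjoint, measure_eq_zero_iff_ae_notMem]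
    filter_upwards [h] with x hx hx'
    exact (hx.1 hx'.1).2 hx'.2
  have hsub : μ (T₂ ⁻¹' S ∪ T₃ ⁻¹' S) ≤ μ (P '' ({b} ×ˢ A)) := by
    apply measure_mono_ae
    filter_upwards [h] with x hx hx'
    rcases hx' with h' | h'
    · exact (hx.1 h').1
    · exact hx.2 h'
  rw [measure_union₀ (h₃ hSm).nullMeasurableSet hdisj, e2, e3, mix_image ν hP b hb hA] at hsub
  have hfin : (6⁻¹ * ν A : ℝ≥0∞) ≠ ∞ :=
    ENNReal.mul_ne_top (by norm_num) (measure_ne_top ν A)
  have h0 : (6⁻¹ * ν A : ℝ≥0∞) = 0 := by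
    have : 6⁻¹ * ν A + 6⁻¹ * ν A ≤ 6⁻¹ * ν A + 0 := by simpa using hsub
    exact nonpos_iff_eq_zero.mp ((ENNReal.add_le_add_iff_left hfin).mp this)
  exact (mul_eq_zero.mp h0).resolve_left (by norm_num)

theorem no_contact_map (ν : Measure Ω) [IsProbabilityMeasure ν] {P : Fin 5 × Ω → V}
    (hP : MeasurableEmbedding P) {T₂ T₃ : V → V} (h₂ : Measurable T₂) (h₃ : Measurable T₃)
    (hT₂ : (mix ν P).map T₂ = mix ν P) (hT₃ : (mix ν P).map T₃ = mix ν P)
    (h : ∀ᵐ x ∂(mix ν P), ∃ (j k l : Fin 5) (ω : Ω), Tri j k l ∧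
      x = P (j, ω) ∧ T₂ x = P (k, ω) ∧ T₃ x = P (l, ω)) : False := by
  set R : Set V := P '' ({3} ×ˢ univ) ∪ P '' ({4} ×ˢ univ) with hR
  have hRm : MeasurableSet R :=
    (meas_image hP 3 MeasurableSet.univ).union (meas_image hP 4 MeasurableSet.univ)
  set A : Set Ω := (fun ω => T₂ (P (0, ω))) ⁻¹' R with hA
  have hAm : MeasurableSet A := (h₂.comp (meas_slice hP.measurable 0)) hRm
  have mem : ∀ (j k : Fin 5) (ω : Ω) (B : Set Ω), P (j, ω) ∈ P '' ({k} ×ˢ B) ↔ j = k ∧ ω ∈ B := by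
    intro j k ω B
    simp only [hP.injective.mem_set_image, mem_prod, mem_singleton_iff]
  have memA : ∀ (k : Fin 5) (ω : Ω), T₂ (P (0, ω)) = P (k, ω) → (ω ∈ A ↔ k = 3 ∨ k = 4) := by
    intro k ω hk
    simp only [hA, hR, mem_preimage, hk, mem_union, mem, mem_univ, and_true]
  have c1 : ν A = 0 := by
    refine count_aux ν hP h₂ h₃ hT₂ hT₃ 1 2 (by decide) (by decide) hAm ?_
    filter_upwards [h] with x hx
    obtain ⟨j, k, l, ω, htri, rfl, e2, e3⟩ := hx
    rw [e2, e3]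
    simp only [mem]
    have key : ω ∈ A → (j = 0 → k = 3 ∨ k = 4) := by
      rintro hω rfl
      exact (memA k ω e2).mp hω
    have fin1 : ∀ j k l : Fin 5, Tri j k l → (j = 0 → k = 3 ∨ k = 4) →
        (k = 1 → j = 2 ∧ l ≠ 1) ∧ (l = 1 → j = 2) := by decide
    refine ⟨fun hk => ?_, fun hl => ?_⟩
    · have := (fin1 j k l htri (key hk.2)).1 hk.1
      exact ⟨⟨this.1, hk.2⟩, fun hl => this.2 hl.1⟩
    · exact ⟨(fin1 j k l htri (key hl.2)).2 hl.1, hl.2⟩
  have c2 : ν Aᶜ = 0 := by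
    refine count_aux ν hP h₂ h₃ hT₂ hT₃ 3 4 (by decide) (by decide) hAm.compl ?_
    filter_upwards [h] with x hx
    obtain ⟨j, k, l, ω, htri, rfl, e2, e3⟩ := hx
    rw [e2, e3]
    simp only [mem]
    have key : ω ∈ Aᶜ → (j = 0 → ¬ (k = 3 ∨ k = 4)) := by
      rintro hω rfl hk
      exact hω ((memA k ω e2).mpr hk)
    have fin1 : ∀ j k l : Fin 5, Tri j k l → (j = 0 → ¬ (k = 3 ∨ k = 4)) →
        (k = 3 → j = 4 ∧ l ≠ 3) ∧ (l = 3 → j = 4) := by decide
    refine ⟨fun hk => ?_, fun hl => ?_⟩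
    · have := (fin1 j k l htri (key hk.2)).1 hk.1
      exact ⟨⟨this.1, hk.2⟩, fun hl => this.2 hl.1⟩
    · exact ⟨(fin1 j k l htri (key hl.2)).2 hl.1, hl.2⟩
  have := measure_add_measure_compl (μ := ν) hAm
  rw [c1, c2, measure_univ] at this
  simp at this

theorem coulomb_rot {V : Type*} [PseudoEMetricSpace V] (x y z : V) :
    coulomb y z x = coulomb x y z := by
  simp only [coulomb, edist_comm y x, edist_comm z x]
  abel

theorem coulomb_swap {V : Type*} [PseudoEMetricSpace V] (x y z : V) :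
    coulomb y x z = coulomb x y z := by
  simp only [coulomb, edist_comm y x]
  abel

variable [PseudoEMetricSpace V] [SecondCountableTopology V] [OpensMeasurableSpace V]

theorem meas_coulomb {α : Type*} [MeasurableSpace α] {f g h : α → V} (hf : Measurable f)
    (hg : Measurable g) (hh : Measurable h) : Measurable (fun a => coulomb (f a) (g a) (h a)) :=
  (((hf.edist hg).inv).add ((hf.edist hh).inv)).add ((hg.edist hh).inv)

theorem abstract_main (ν : Measure Ω) [IsProbabilityMeasure ν] {P : Fin 5 × Ω → V}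
    (hP : MeasurableEmbedding P) (u : Fin 5 × Ω → ℝ≥0∞) (hu : Measurable u) (K M : ℝ≥0∞)
    (hK : K ≠ ∞) (hM : M ≠ ∞) (hub : ∀ w, u w ≤ M)
    (hle : ∀ w₁ w₂ w₃, u w₁ + u w₂ + u w₃ ≤ coulomb (P w₁) (P w₂) (P w₃) + K)
    (heq : ∀ w₁ w₂ w₃, coulomb (P w₁) (P w₂) (P w₃) + K ≤ u w₁ + u w₂ + u w₃ →
      w₁.2 = w₂.2 ∧ w₁.2 = w₃.2 ∧ Tri w₁.1 w₂.1 w₃.1)
    (h012 : ∀ ω, coulomb (P (0, ω)) (P (1, ω)) (P (2, ω)) + K ≤ u (0, ω) + u (1, ω) + u (2, ω))
    (h034 : ∀ ω, coulomb (P (0, ω)) (P (3, ω)) (P (4, ω)) + K ≤ u (0, ω) + u (3, ω) + u (4, ω)) :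
    kantorovich (mix ν P) < ∞ ∧
      ∀ T₂ T₃ : V → V, Measurable T₂ → Measurable T₃ →
        (mix ν P).map T₂ = mix ν P → (mix ν P).map T₃ = mix ν P →
        kantorovich (mix ν P) < ∫⁻ x, coulomb x (T₂ x) (T₃ x) ∂(mix ν P) := by
  set μ := mix ν P with hμ
  have hprob : IsProbabilityMeasure μ := mix_prob ν hP.measurable
  set U : V → ℝ≥0∞ := Function.extend P u 0 with hU
  have hUm : Measurable U := hP.measurable_extend hu measurable_const
  have hUP : ∀ w, U (P w) = u w := fun w => hP.injective.extend_apply u 0 w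
  have hUle : ∀ x, U x ≤ M := by
    intro x
    by_cases hx : ∃ w, P w = x
    · obtain ⟨w, rfl⟩ := hx
      rw [hUP]; exact hub w
    · rw [hU, Function.extend_apply' _ _ _ hx]; exact zero_le
  set I := ∫⁻ x, U x ∂μ with hI
  have hIfin : I ≠ ∞ := by
    have : I ≤ ∫⁻ _, M ∂μ := lintegral_mono hUle
    rw [lintegral_const, measure_univ, mul_one] at this
    exact ne_top_of_le_ne_top hM this
  have hI3 : I + I + I ≠ ∞ := by simp [hIfin]
  have m1 : Measurable (fun q : V × V × V => q.1) := measurable_fst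
  have m2 : Measurable (fun q : V × V × V => q.2.1) := measurable_snd.fst
  have m3 : Measurable (fun q : V × V × V => q.2.2) := measurable_snd.snd
  have hpl := plan_mem ν hP.measurable
  have hplprob : IsProbabilityMeasure (plan ν P) := hpl.1
  have hcm : Measurable (fun q : V × V × V => coulomb q.1 q.2.1 q.2.2) := meas_coulomb m1 m2 m3
  have hcost : ∫⁻ q, coulomb q.1 q.2.1 q.2.2 ∂(plan ν P) + K ≤ I + I + I := by
    have hset : MeasurableSet {q : V × V × V |
        coulomb q.1 q.2.1 q.2.2 + K ≤ U q.1 + U q.2.1 + U q.2.2} :=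
      measurableSet_le (hcm.add_const K) (((hUm.comp m1).add (hUm.comp m2)).add (hUm.comp m3))
    have hsh : ∀ j k l : Fin 5, (∀ ω, coulomb (P (j, ω)) (P (k, ω)) (P (l, ω)) + K
        ≤ u (j, ω) + u (k, ω) + u (l, ω)) → ∀ᵐ q ∂(sheet ν P j k l),
        coulomb q.1 q.2.1 q.2.2 + K ≤ U q.1 + U q.2.1 + U q.2.2 := by
      intro j k l hh
      rw [sheet, ae_map_iff (meas_triple hP.measurable j k l).aemeasurable hset]
      exact Filter.Eventually.of_forall fun ω => by simpa only [hUP] using hh ω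
    have rot : ∀ j k l : Fin 5, (∀ ω, coulomb (P (j, ω)) (P (k, ω)) (P (l, ω)) + K
        ≤ u (j, ω) + u (k, ω) + u (l, ω)) → ∀ ω, coulomb (P (k, ω)) (P (l, ω)) (P (j, ω)) + K
        ≤ u (k, ω) + u (l, ω) + u (j, ω) := by
      intro j k l hh ω
      rw [coulomb_rot]
      exact (hh ω).trans_eq (by abel)
    have hae : ∀ᵐ q ∂(plan ν P), coulomb q.1 q.2.1 q.2.2 + K ≤ U q.1 + U q.2.1 + U q.2.2 := by
      apply Measure.ae_smul_measure
      simp only [ae_add_measure_iff]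
      exact ⟨⟨⟨⟨⟨hsh _ _ _ h012, hsh _ _ _ (rot _ _ _ h012)⟩,
        hsh _ _ _ (rot _ _ _ (rot _ _ _ h012))⟩, hsh _ _ _ h034⟩, hsh _ _ _ (rot _ _ _ h034)⟩,
        hsh _ _ _ (rot _ _ _ (rot _ _ _ h034))⟩
    have h1 := lintegral_mono_ae hae
    rw [lintegral_add_right _ measurable_const, lintegral_const, measure_univ, mul_one,
      lintegral_add_right _ (hUm.fun_comp m3), lintegral_add_right _ (hUm.fun_comp m2)] at h1
    have i1 : ∫⁻ q, U q.1 ∂(plan ν P) = I := by rw [← lintegral_map hUm m1, hpl.2.1]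
    have i2 : ∫⁻ q, U q.2.1 ∂(plan ν P) = I := by rw [← lintegral_map hUm m2, hpl.2.2.1]
    have i3 : ∫⁻ q, U q.2.2 ∂(plan ν P) = I := by rw [← lintegral_map hUm m3, hpl.2.2.2]
    rwa [i1, i2, i3] at h1
  have hkant : kantorovich μ ≤ ∫⁻ q, coulomb q.1 q.2.1 q.2.2 ∂(plan ν P) :=
    iInf₂_le (plan ν P) hpl
  refine ⟨lt_of_le_of_lt (hkant.trans (le_self_add.trans hcost)) hI3.lt_top, ?_⟩
  intro T₂ T₃ h₂ h₃ hT₂ hT₃
  by_contra hcon
  push Not at hcon
  have hr := mix_ae_range ν hP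
  have hr2 : ∀ᵐ x ∂μ, T₂ x ∈ range P :=
    ae_of_ae_map h₂.aemeasurable (p := fun y => y ∈ range P) (by rw [hT₂]; exact hr)
  have hr3 : ∀ᵐ x ∂μ, T₃ x ∈ range P :=
    ae_of_ae_map h₃.aemeasurable (p := fun y => y ∈ range P) (by rw [hT₃]; exact hr)
  have hcm' : Measurable (fun x => coulomb x (T₂ x) (T₃ x)) := meas_coulomb measurable_id h₂ h₃
  have hsum : ∫⁻ x, U x + U (T₂ x) + U (T₃ x) ∂μ = I + I + I := by
    rw [lintegral_add_right _ (hUm.fun_comp h₃), lintegral_add_right _ (hUm.fun_comp h₂)]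
    rw [← lintegral_map hUm h₂, ← lintegral_map hUm h₃, hT₂, hT₃]
  have hle' : (fun x => U x + U (T₂ x) + U (T₃ x)) ≤ᵐ[μ]
      (fun x => coulomb x (T₂ x) (T₃ x) + K) := by
    filter_upwards [hr, hr2, hr3] with x hx hx2 hx3
    obtain ⟨w₁, rfl⟩ := hx
    obtain ⟨w₂, e2⟩ := hx2
    obtain ⟨w₃, e3⟩ := hx3
    simp only [← e2, ← e3, hUP]
    exact hle _ _ _
  have hae := ae_eq_of_ae_le_of_lintegral_le hle' (by rw [hsum]; exact hI3)
    (hcm'.add_const K).aemeasurable (by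
      rw [hsum, lintegral_add_right _ measurable_const, lintegral_const, measure_univ, mul_one]
      exact (add_le_add_left (hcon.trans hkant) K).trans hcost)
  refine no_contact_map ν hP h₂ h₃ hT₂ hT₃ ?_
  filter_upwards [hr, hr2, hr3, hae] with x hx hx2 hx3 hx4
  obtain ⟨⟨j, ω⟩, rfl⟩ := hx
  obtain ⟨⟨k, ω₂⟩, e2⟩ := hx2
  obtain ⟨⟨l, ω₃⟩, e3⟩ := hx3
  simp only [← e2, ← e3, hUP] at hx4
  obtain ⟨f1, f2, f3⟩ := heq _ _ _ hx4.ge
  simp only at f1 f2 f3
  subst f1 f2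
  exact ⟨j, k, l, ω, f3, rfl, e2.symm, e3.symm⟩

end Vale.Agent.P121
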