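import Mathlib

namespace Vale.Agent.P121

open MeasureTheory
open scoped ENNReal

/-- The three-particle Coulomb cost; it equals `+∞` when two of the points coincide. -/
noncomputable def coulomb {V : Type*} [PseudoEMetricSpace V] (x y z : V) : ℝ≥0∞ :=
  (edist x y)⁻¹ + (edist x z)⁻¹ + (edist y z)⁻¹

/-- Probability measures on `V × V × V` all of whose three coordinate marginals equal `μ`. -/
def couplings {V : Type*} [MeasurableSpace V] (μ : Measure V) : Set (Measure (V × V × V)) :=
  {π | IsProbabilityMeasure π ∧ π.map (fun q => q.1) = μ ∧ π.map (fun q => q.2.1) = μ ∧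
    π.map (fun q => q.2.2) = μ}

/-- The Kantorovich value: the infimum of the Coulomb cost over all couplings. -/
noncomputable def kantorovich {V : Type*} [PseudoEMetricSpace V] [MeasurableSpace V]
    (μ : Measure V) : ℝ≥0∞ :=
  ⨅ π ∈ couplings μ, ∫⁻ q, coulomb q.1 q.2.1 q.2.2 ∂π

end Vale.Agent.P121
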