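import Mathlib

/-!
Pushing a smooth compactly supported density through a local analytic diffeomorphism.
-/

namespace Vale.Agent.P121

open MeasureTheory Set Filter Metric
open scoped ENNReal Topology ContDiff

variable {V : Type*} [NormedAddCommGroup V] [NormedSpace ℝ V] [FiniteDimensional ℝ V]

theorem contDiff_det {n : WithTop ℕ∞} : ContDiff ℝ n (fun A : V →L[ℝ] V => A.det) := by
  classical
  let b := Module.finBasis ℝ V
  have h : (fun A : V →L[ℝ] V => A.det) = fun A : V →L[ℝ] V =>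
      ∑ σ : Equiv.Perm (Fin (Module.finrank ℝ V)),
        ((Equiv.Perm.sign σ : ℤ) : ℝ) * ∏ i, b.repr (A (b i)) (σ i) := by
    funext A
    change LinearMap.det (A : V →ₗ[ℝ] V) = _
    rw [← LinearMap.det_toMatrix b, Matrix.det_apply']
    simp [LinearMap.toMatrix_apply]
  rw [h]
  refine ContDiff.sum fun σ _ => contDiff_const.mul (contDiff_prod fun i _ => ?_)
  have h1 : ContDiff ℝ n (fun A : V →L[ℝ] V => A (b i)) :=
    (ContinuousLinearMap.apply ℝ V (b i)).contDiff
  exact (LinearMap.toContinuousLinearMap (b.coord (σ i))).contDiff.comp h1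

variable [MeasurableSpace V] [BorelSpace V]

/-- Measures with a smooth, compactly supported, nonnegative density with respect to `m`. -/
def SmoothDensity (m μ : Measure V) : Prop :=
  ∃ ρ : V → ℝ, ContDiff ℝ ∞ ρ ∧ HasCompactSupport ρ ∧ (∀ x, 0 ≤ ρ x) ∧
    μ = m.withDensity (fun x => ENNReal.ofReal (ρ x))

theorem SmoothDensity.add {m μ μ' : Measure V} (h : SmoothDensity m μ) (h' : SmoothDensity m μ') :
    SmoothDensity m (μ + μ') := by
  obtain ⟨ρ, h1, h2, h3, rfl⟩ := h
  obtain ⟨ρ', h1', h2', h3', rfl⟩ := h'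
  refine ⟨fun x => ρ x + ρ' x, h1.add h1', h2.add h2', fun x => add_nonneg (h3 x) (h3' x), ?_⟩
  rw [← withDensity_add_left h1.continuous.measurable.ennreal_ofReal]
  congr 1
  funext x
  simp [ENNReal.ofReal_add (h3 x) (h3' x)]

theorem SmoothDensity.smul_six {m μ : Measure V} (h : SmoothDensity m μ) :
    SmoothDensity m ((6 : ℝ≥0∞)⁻¹ • μ) := by
  obtain ⟨ρ, h1, h2, h3, rfl⟩ := h
  refine ⟨fun x => 6⁻¹ * ρ x, contDiff_const.mul h1, h2.mul_left,
    fun x => mul_nonneg (by norm_num) (h3 x), ?_⟩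
  rw [← withDensity_smul _ h1.continuous.measurable.ennreal_ofReal]
  congr 1
  funext x
  rw [ENNReal.ofReal_mul (by norm_num), ENNReal.ofReal_inv_of_pos (by norm_num)]
  simp

theorem smooth_push (m : Measure V) [m.IsAddHaarMeasure] {f : V → V} {A : V →L[ℝ] V}
    (hf : ContDiffAt ℝ ω f 0) (hA : HasFDerivAt f A 0) (hinj : Function.Injective A) :
    ∃ δ₀ : ℝ, 0 < δ₀ ∧ ContinuousOn f (ball 0 δ₀) ∧ InjOn f (ball 0 δ₀) ∧
      ∀ ρ : V → ℝ, ContDiff ℝ ∞ ρ → HasCompactSupport ρ → (∀ x, 0 ≤ ρ x) →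
        tsupport ρ ⊆ ball 0 δ₀ →
        SmoothDensity m ((m.withDensity (fun x => ENNReal.ofReal (ρ x))).map f) := by
  have : CompleteSpace V := FiniteDimensional.complete ℝ V
  let A' : V ≃L[ℝ] V := (LinearEquiv.ofInjectiveEndo (A : V →ₗ[ℝ] V) hinj).toContinuousLinearEquiv
  have hA' : HasFDerivAt f (A' : V →L[ℝ] V) 0 := by
    refine HasFDerivAt.congr_fderiv hA ?_
    ext; rfl
  have hω : (ω : WithTop ℕ∞) ≠ 0 := by simp
  set E := hf.toOpenPartialHomeomorph f hA' hω with hE
  have hEf : ∀ x, E x = f x := fun x => rfl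
  set g : V → V := fun x => E.symm x with hg
  have hgc : ContDiffAt ℝ ω g (f 0) := hf.to_localInverse hA' hω
  have hgd : HasFDerivAt g (A'.symm : V →L[ℝ] V) (f 0) :=
    (hf.hasStrictFDerivAt' hA' hω).to_localInverse.hasFDerivAt
  have hdc : ∀ x, ContDiffAt ℝ ω g x → ContDiffAt ℝ ω (fun x => (fderiv ℝ g x).det) x :=
    fun x hx => contDiff_det.contDiffAt.comp x (hx.fderiv_right (m := ω) (by simp))
  have hdet0 : (fderiv ℝ g (f 0)).det ≠ 0 := by
    rw [hgd.fderiv]
    exact A'.symm.toLinearEquiv.isUnit_det'.ne_zero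
  have hev : ∀ᶠ x in 𝓝 (f 0), x ∈ E.target ∧ ContDiffAt ℝ ω g x ∧ (fderiv ℝ g x).det ≠ 0 := by
    refine Filter.Eventually.and ?_ (Filter.Eventually.and ?_ ?_)
    · exact E.open_target.mem_nhds (hf.image_mem_toOpenPartialHomeomorph_target hA' hω)
    · exact hgc.eventually (by simp)
    · exact (hdc _ hgc).continuousAt.eventually_ne hdet0
  obtain ⟨W, hW, hWo, hW0⟩ := _root_.eventually_nhds_iff.mp hev
  have hev2 : ∀ᶠ y in 𝓝 (0 : V), y ∈ E.source ∧ f y ∈ W :=
    Filter.Eventually.and
      (E.open_source.mem_nhds (hf.mem_toOpenPartialHomeomorph_source hA' hω))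
      (hf.continuousAt.eventually (hWo.mem_nhds hW0))
  obtain ⟨δ₀, hδ₀, hball⟩ := Metric.eventually_nhds_iff_ball.mp hev2
  have hsrc : ball (0 : V) δ₀ ⊆ E.source := fun y hy => (hball y hy).1
  have hcont : ContinuousOn f (ball 0 δ₀) := E.continuousOn.mono hsrc
  refine ⟨δ₀, hδ₀, hcont, E.injOn.mono hsrc, ?_⟩
  intro ρ hρ hρc hρ0 hsupp
  set ρ' : V → ℝ := W.indicator (fun x => |(fderiv ℝ g x).det| * ρ (g x)) with hρ'
  set K := f '' tsupport ρ with hK
  have hKc : IsCompact K := hρc.isCompact.image_of_continuousOn (hcont.mono hsupp)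
  have hKW : K ⊆ W := by
    rintro _ ⟨y, hy, rfl⟩
    exact (hball y (hsupp hy)).2
  have hzero : ∀ x, x ∉ K → ρ' x = 0 := by
    intro x hx
    by_cases hxW : x ∈ W
    · rw [hρ', indicator_of_mem hxW]
      have : ρ (g x) = 0 := by
        by_contra hne
        exact hx ⟨g x, subset_tsupport _ hne, E.right_inv (hW x hxW).1⟩
      rw [this, mul_zero]
    · rw [hρ', indicator_of_notMem hxW]
  refine ⟨ρ', ?_, HasCompactSupport.intro hKc hzero, ?_, ?_⟩
  · rw [contDiff_iff_contDiffAt]
    intro x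
    by_cases hxW : x ∈ W
    · have h1 : ContDiffAt ℝ ∞ (fun x => |(fderiv ℝ g x).det| * ρ (g x)) x :=
        (((hdc x (hW x hxW).2.1).of_le le_top).abs (hW x hxW).2.2).mul
          (hρ.contDiffAt.comp x ((hW x hxW).2.1.of_le le_top))
      refine h1.congr_of_eventuallyEq ?_
      filter_upwards [hWo.mem_nhds hxW] with x' hx'
      rw [hρ', indicator_of_mem hx']
    · have hxK : x ∈ Kᶜ := fun h => hxW (hKW h)
      refine (contDiffAt_const (c := (0 : ℝ))).congr_of_eventuallyEq ?_
      filter_upwards [hKc.isClosed.isOpen_compl.mem_nhds hxK] with x' hx'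
      exact hzero x' hx'
  · intro x
    exact indicator_nonneg (fun x _ => mul_nonneg (abs_nonneg _) (hρ0 _)) x
  · set ν := m.withDensity (fun x => ENNReal.ofReal (ρ x)) with hν
    have hae : ∀ᵐ y ∂ν, y ∈ ball (0 : V) δ₀ := by
      rw [hν, ae_withDensity_iff hρ.continuous.measurable.ennreal_ofReal]
      refine Filter.Eventually.of_forall fun y hy => hsupp (subset_tsupport _ ?_)
      intro h0
      apply hy
      rw [h0, ENNReal.ofReal_zero]
    have hfm : AEMeasurable f ν := by
      rw [← Measure.restrict_eq_self_of_ae_mem hae]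
      exact hcont.aemeasurable measurableSet_ball
    ext S hS
    have hWS : MeasurableSet (W ∩ S) := hWo.measurableSet.inter hS
    have hder : ∀ x ∈ W ∩ S, HasFDerivWithinAt g (fderiv ℝ g x) (W ∩ S) x := fun x hx =>
      ((hW x hx.1).2.1.differentiableAt hω).hasFDerivAt.hasFDerivWithinAt
    have hginj : InjOn g (W ∩ S) := E.symm.injOn.mono fun x hx => (hW x hx.1).1
    have himg : MeasurableSet (g '' (W ∩ S)) := measurable_image_of_fderivWithin hWS hder hginj
    have hsets : f ⁻¹' S =ᵐ[ν] g '' (W ∩ S) := by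
      filter_upwards [hae] with y hy
      apply propext
      constructor
      · intro hyS
        exact ⟨f y, ⟨(hball y hy).2, hyS⟩, E.left_inv (hsrc hy)⟩
      · rintro ⟨x, hx, rfl⟩
        change f (g x) ∈ S
        have : f (g x) = x := E.right_inv (hW x hx.1).1
        rw [this]; exact hx.2
    rw [Measure.map_apply_of_aemeasurable hfm hS, measure_congr hsets, hν,
      withDensity_apply _ himg, lintegral_image_eq_lintegral_abs_det_fderiv_mul m hWS hder hginj,
      withDensity_apply _ hS, ← Measure.restrict_restrict hWo.measurableSet,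
      ← lintegral_indicator hWo.measurableSet]
    congr 1
    funext x
    by_cases hxW : x ∈ W
    · rw [hρ', indicator_of_mem hxW, indicator_of_mem hxW, ENNReal.ofReal_mul (abs_nonneg _)]
    · rw [hρ', indicator_of_notMem hxW, indicator_of_notMem hxW, ENNReal.ofReal_zero]

end Vale.Agent.P121
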