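import Mathlib

/-!
Local analysis for the three-particle Coulomb cost near a collinear configuration `(-e, 0, e)`.
-/

namespace Vale.Agent.P121

open scoped RealInnerProductSpace Topology ContDiff
open Filter Metric

variable {V : Type*} [NormedAddCommGroup V] [InnerProductSpace ℝ V]

/-- Gradient of `v ↦ 1 / ‖v‖`. -/
noncomputable def frc (v : V) : V := -((‖v‖ ^ 3)⁻¹ • v)

theorem hasFDerivAt_nrm {v : V} (hv : v ≠ 0) :
    HasFDerivAt (fun w : V => ‖w‖) (‖v‖⁻¹ • innerSL ℝ v) v := by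
  have h0 : ‖v‖ ≠ 0 := norm_ne_zero_iff.mpr hv
  have h1 := ((hasStrictFDerivAt_norm_sq v).hasFDerivAt).sqrt (pow_ne_zero 2 h0)
  have h2 : (fun w : V => √(‖w‖ ^ 2)) = fun w : V => ‖w‖ := by
    funext w; exact Real.sqrt_sq (norm_nonneg w)
  rw [h2] at h1
  convert h1 using 1
  ext w
  simp only [Real.sqrt_sq (norm_nonneg v), smul_apply, smul_eq_mul,
    nsmul_eq_mul]
  field_simp
  norm_num

theorem hasFDerivAt_inv_nrm {v : V} (hv : v ≠ 0) :
    HasFDerivAt (fun w : V => ‖w‖⁻¹) (innerSL ℝ (frc v)) v := by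
  have h0 : ‖v‖ ≠ 0 := norm_ne_zero_iff.mpr hv
  have h1 := (hasDerivAt_inv h0).comp_hasFDerivAt v (hasFDerivAt_nrm hv)
  refine HasFDerivAt.congr_fderiv (f := fun w : V => ‖w‖⁻¹) h1 ?_
  ext w
  simp only [frc, innerSL_apply_apply, inner_neg_left, real_inner_smul_left,
    smul_apply, smul_eq_mul]
  field_simp

/-- The operator `h ↦ 3⟪e,h⟫e - h`, the Hessian of `1/‖·‖` at a unit vector `e`. -/
noncomputable def dop (e : V) : V →L[ℝ] V :=
  (3 : ℝ) • (innerSL ℝ e).smulRight e - ContinuousLinearMap.id ℝ V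

theorem dop_apply (e h : V) : dop e h = (3 * ⟪e, h⟫) • e - h := by
  simp [dop, smul_smul]

theorem hasFDerivAt_frc {e : V} (he : ‖e‖ = 1) {t : ℝ} (ht : t ≠ 0) :
    HasFDerivAt (frc : V → V) ((|t| ^ 3)⁻¹ • dop e) (t • e) := by
  have hn : ‖t • e‖ = |t| := by rw [norm_smul, he, mul_one, Real.norm_eq_abs]
  have hta : |t| ≠ 0 := abs_ne_zero.mpr ht
  have hv : t • e ≠ 0 := by rw [← norm_ne_zero_iff, hn]; exact hta
  have h0 : ‖t • e‖ ^ 3 ≠ 0 := by rw [hn]; exact pow_ne_zero 3 hta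
  have h1 := (hasFDerivAt_nrm hv).pow 3
  have h2 := (hasDerivAt_inv h0).comp_hasFDerivAt (t • e) h1
  have h3 := (h2.smul (hasFDerivAt_id (t • e))).neg
  refine HasFDerivAt.congr_fderiv (f := frc) h3 ?_
  ext w
  have hsq : |t| ^ 2 = t ^ 2 := sq_abs t
  simp only [smul_apply, dop_apply, Function.comp_apply, hn,
    neg_apply, add_apply, ContinuousLinearMap.id_apply,
    ContinuousLinearMap.smulRight_apply, innerSL_apply_apply, real_inner_smul_left, id,
    smul_eq_mul, nsmul_eq_mul, smul_smul, smul_sub, neg_add]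
  rw [add_comm, sub_eq_add_neg, ← neg_smul]
  congr 2
  field_simp
  rw [← hsq]
  push_cast
  ring

theorem contDiffAt_frc {n : WithTop ℕ∞} {v : V} (hv : v ≠ 0) : ContDiffAt ℝ n (frc : V → V) v := by
  have h0 : ‖v‖ ^ 3 ≠ 0 := pow_ne_zero 3 (norm_ne_zero_iff.mpr hv)
  exact ((((contDiffAt_norm ℝ hv).pow 3).inv h0).smul contDiffAt_id).neg

/-- The potential used near the point `e`. -/
noncomputable def uz (e z : V) : ℝ :=
  -(5 / 4) * ⟪e, z - e⟫ + 3 / 2 * ⟪e, z - e⟫ ^ 2 - ‖z - e‖ ^ 2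

/-- Gradient of `uz e`. -/
noncomputable def guz (e z : V) : V := -((5 / 4 : ℝ) • e) + (dop e (z - e) - (z - e))

/-- Real-valued Coulomb cost. -/
noncomputable def cR (x y z : V) : ℝ := ‖x - y‖⁻¹ + ‖x - z‖⁻¹ + ‖y - z‖⁻¹

/-- Cost minus the potentials of the second and third particle. -/
noncomputable def phi (e x y z : V) : ℝ := cR x y z + 2 * ‖y‖ ^ 2 - uz e z

/-- Gradient of `phi e x` in `(y, z)`; the argument is `(y, x, z)`. -/
noncomputable def grd (e : V) (q : V × V × V) : V × V :=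
  (frc (q.1 - q.2.1) + frc (q.1 - q.2.2) + (4 : ℝ) • q.1,
    frc (q.2.2 - q.2.1) + frc (q.2.2 - q.1) - guz e q.2.2)

/-- First coordinate. -/
noncomputable def pY : V × V × V →L[ℝ] V := ContinuousLinearMap.fst ℝ V (V × V)

/-- Second coordinate. -/
noncomputable def pX : V × V × V →L[ℝ] V :=
  (ContinuousLinearMap.fst ℝ V V).comp (ContinuousLinearMap.snd ℝ V (V × V))

/-- Third coordinate. -/
noncomputable def pZ : V × V × V →L[ℝ] V :=
  (ContinuousLinearMap.snd ℝ V V).comp (ContinuousLinearMap.snd ℝ V (V × V))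

@[simp] theorem pY_apply (q : V × V × V) : pY q = q.1 := rfl
@[simp] theorem pX_apply (q : V × V × V) : pX q = q.2.1 := rfl
@[simp] theorem pZ_apply (q : V × V × V) : pZ q = q.2.2 := rfl

/-- Derivative of `grd e` at the base point. -/
noncomputable def lin (e : V) : V × V × V →L[ℝ] V × V :=
  ((dop e).comp (pY - pX) + (dop e).comp (pY - pZ) + (4 : ℝ) • pY).prod
    ((1 / 8 : ℝ) • (dop e).comp (pZ - pX) + (dop e).comp (pZ - pY) - ((dop e).comp pZ - pZ))

theorem lin_apply (e b a c : V) : lin e (b, a, c) =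
    (dop e (b - a) + dop e (b - c) + (4 : ℝ) • b,
      (1 / 8 : ℝ) • dop e (c - a) + dop e (c - b) - (dop e c - c)) := by
  simp [lin]

theorem hasFDerivAt_frc_comp {e : V} (he : ‖e‖ = 1) {t : ℝ} (ht : t ≠ 0) (A : V × V × V →L[ℝ] V)
    (q : V × V × V) (hq : A q = t • e) :
    HasFDerivAt (fun p => frc (A p)) ((|t| ^ 3)⁻¹ • (dop e).comp A) q := by
  have h1 : HasFDerivAt (frc : V → V) ((|t| ^ 3)⁻¹ • dop e) (A q) := by
    rw [hq]; exact hasFDerivAt_frc he ht
  have h2 := h1.comp q A.hasFDerivAt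
  refine HasFDerivAt.congr_fderiv (f := fun p => frc (A p)) h2 ?_
  ext <;> simp

theorem hasFDerivAt_grd {e : V} (he : ‖e‖ = 1) :
    HasFDerivAt (grd e) (lin e) ((0 : V), -e, e) := by
  have h1 := hasFDerivAt_frc_comp he (t := 1) one_ne_zero (pY - pX) ((0 : V), -e, e) (by simp)
  have h2 := hasFDerivAt_frc_comp he (t := -1) (by norm_num) (pY - pZ) ((0 : V), -e, e) (by simp)
  have h3 := hasFDerivAt_frc_comp he (t := 2) (by norm_num) (pZ - pX) ((0 : V), -e, e)
    (by simp [two_smul])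
  have h4 := hasFDerivAt_frc_comp he (t := 1) one_ne_zero (pZ - pY) ((0 : V), -e, e) (by simp)
  have h5 : HasFDerivAt (fun p : V × V × V => (4 : ℝ) • p.1) ((4 : ℝ) • pY) ((0 : V), -e, e) :=
    ((4 : ℝ) • (pY : V × V × V →L[ℝ] V)).hasFDerivAt
  have h6 : HasFDerivAt (fun p : V × V × V => guz e p.2.2) ((dop e).comp pZ - pZ)
      ((0 : V), -e, e) := by
    have h7 : HasFDerivAt (fun p : V × V × V => p.2.2 - e) pZ ((0 : V), -e, e) :=
      (pZ : V × V × V →L[ℝ] V).hasFDerivAt.sub_const e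
    exact (((dop e).hasFDerivAt.comp _ h7).sub h7).const_add _
  have h8 := ((h1.add h2).add h5).prodMk ((h3.add h4).sub h6)
  refine HasFDerivAt.congr_fderiv (f := grd e) h8 ?_
  unfold lin
  norm_num

theorem contDiffAt_grd {n : WithTop ℕ∞} {e : V} (he : ‖e‖ = 1) :
    ContDiffAt ℝ n (grd e) ((0 : V), -e, e) := by
  have he0 : e ≠ 0 := by rw [← norm_ne_zero_iff, he]; exact one_ne_zero
  have hc : ∀ (A : V × V × V →L[ℝ] V), A ((0 : V), -e, e) ≠ 0 →
      ContDiffAt ℝ n (fun p => frc (A p)) ((0 : V), -e, e) := fun A hA =>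
    (contDiffAt_frc hA).comp _ A.contDiff.contDiffAt
  have h1 := hc (pY - pX) (by simpa using he0)
  have h2 := hc (pY - pZ) (by simpa using he0)
  have h3 := hc (pZ - pX) (by
    simp only [sub_apply, pZ_apply, pX_apply, sub_neg_eq_add]
    rw [← two_smul ℝ e]
    exact smul_ne_zero two_ne_zero he0)
  have h4 := hc (pZ - pY) (by simpa using he0)
  have h5 : ContDiffAt ℝ n (fun p : V × V × V => (4 : ℝ) • p.1) ((0 : V), -e, e) :=
    ((4 : ℝ) • (pY : V × V × V →L[ℝ] V)).contDiff.contDiffAt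
  have h6 : ContDiffAt ℝ n (fun p : V × V × V => guz e p.2.2) ((0 : V), -e, e) := by
    have h7 : ContDiffAt ℝ n (fun p : V × V × V => p.2.2 - e) ((0 : V), -e, e) :=
      (pZ : V × V × V →L[ℝ] V).contDiff.contDiffAt.sub contDiffAt_const
    exact contDiffAt_const.add (((dop e).contDiff.contDiffAt.comp _ h7).sub h7)
  exact ((h1.add h2).add h5).prodMk ((h3.add h4).sub h6)

theorem grd_base {e : V} (he : ‖e‖ = 1) : grd e ((0 : V), -e, e) = 0 := by
  have h2 : ‖e + e‖ = 2 := by rw [← two_smul ℝ e, norm_smul, he]; norm_num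
  simp only [grd, frc, guz, sub_neg_eq_add, zero_add, zero_sub, norm_neg, he, h2, sub_zero,
    sub_self, map_zero, smul_zero, add_zero, Prod.mk_eq_zero]
  constructor
  · simp
  · module

theorem inner_dop {e : V} (he : ‖e‖ = 1) (h : V) : ⟪e, dop e h⟫ = 2 * ⟪e, h⟫ := by
  rw [dop_apply, inner_sub_right, real_inner_smul_right, real_inner_self_eq_norm_sq, he]
  ring

theorem dop_dop {e : V} (he : ‖e‖ = 1) (h : V) : dop e (dop e h) = (3 * ⟪e, h⟫) • e + h := by
  rw [dop_apply e (dop e h), inner_dop he, dop_apply]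
  module

theorem dop_injective {e : V} (he : ‖e‖ = 1) : Function.Injective (dop e) := by
  rw [injective_iff_map_eq_zero]
  intro h hh
  have h1 := inner_dop he h
  rw [hh, inner_zero_right] at h1
  have h2 : ⟪e, h⟫ = 0 := by linarith
  rw [dop_apply, h2] at hh
  simpa using hh

theorem lin_kernel {e : V} (he : ‖e‖ = 1) (b : V) : lin e (b, dop e b, dop e b) = 0 := by
  rw [lin_apply]
  simp only [map_sub, dop_dop he, sub_self, map_zero, smul_zero, Prod.mk_eq_zero]
  simp only [dop_apply]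
  constructor <;> module

theorem lin_inr_injective {e : V} (he : ‖e‖ = 1) (a c : V) (h : lin e (0, a, c) = 0) :
    a = 0 ∧ c = 0 := by
  rw [lin_apply, Prod.mk_eq_zero] at h
  obtain ⟨h1, h2⟩ := h
  have h3 : dop e (a + c) = 0 := by
    simp only [map_neg, smul_zero, add_zero, zero_sub] at h1
    rw [map_add, ← neg_eq_zero, neg_add]; exact h1
  have h4 : a = -c := by
    have := (injective_iff_map_eq_zero _).mp (dop_injective he) _ h3
    exact eq_neg_of_add_eq_zero_left this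
  subst h4
  have h5 : (1 / 4 : ℝ) • dop e c + c = 0 := by
    rw [← h2]
    simp only [sub_neg_eq_add, map_add, sub_zero]
    module
  have h6 : ⟪e, c⟫ = 0 := by
    have := congrArg (fun v => ⟪e, v⟫) h5
    simp only [inner_add_right, real_inner_smul_right, inner_dop he, inner_zero_right] at this
    linarith
  rw [dop_apply, h6] at h5
  have h7 : (3 / 4 : ℝ) • c = 0 := by
    rw [← h5]; module
  have h8 : c = 0 := (smul_eq_zero.mp h7).resolve_left (by norm_num)
  simp [h8]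

theorem lin_coercive {e : V} (he : ‖e‖ = 1) (b c : V) :
    1 / 4 * (‖b‖ ^ 2 + ‖c‖ ^ 2) ≤ ⟪(lin e (b, 0, c)).1, b⟫ + ⟪(lin e (b, 0, c)).2, c⟫ := by
  rw [lin_apply]
  have hee : ⟪e, e⟫ = 1 := by rw [real_inner_self_eq_norm_sq, he]; norm_num
  have key := sq_nonneg ‖(8 / 5 : ℝ) • (b - ⟪e, b⟫ • e) + (c - ⟪e, c⟫ • e)‖
  have kb := sq_nonneg ‖b - ⟪e, b⟫ • e‖
  rw [← real_inner_self_eq_norm_sq] at key kb
  simp only [inner_add_left, inner_add_right, inner_sub_left, inner_sub_right,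
    real_inner_smul_left, real_inner_smul_right, hee, real_inner_comm e b, real_inner_comm e c,
    real_inner_comm b c] at key kb
  simp only [dop_apply, sub_zero, inner_add_left, inner_sub_left, inner_sub_right,
    real_inner_smul_left, ← real_inner_self_eq_norm_sq, real_inner_comm b c]
  nlinarith [sq_nonneg (4 * ⟪e, b⟫ - ⟪e, c⟫), sq_nonneg ⟪e, b⟫, sq_nonneg ⟪e, c⟫,
    sq_nonneg (2 * ⟪e, b⟫ - ⟪e, c⟫)]

theorem frc_neg (v : V) : frc (-v) = -frc v := by simp [frc]

/-- Derivative of `phi` along a line in `(y, z)`. -/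
theorem hasDerivAt_phi (e x y z b c : V) (t : ℝ) (h1 : x ≠ y + t • b) (h2 : x ≠ z + t • c)
    (h3 : y + t • b ≠ z + t • c) :
    HasDerivAt (fun s : ℝ => phi e x (y + s • b) (z + s • c))
      (⟪(grd e (y + t • b, x, z + t • c)).1, b⟫ + ⟪(grd e (y + t • b, x, z + t • c)).2, c⟫) t := by
  have hy : HasDerivAt (fun s : ℝ => y + s • b) b t := by
    simpa using ((hasDerivAt_id t).smul_const b).const_add y
  have hz : HasDerivAt (fun s : ℝ => z + s • c) c t := by
    simpa using ((hasDerivAt_id t).smul_const c).const_add z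
  have a1 := (hasFDerivAt_inv_nrm (sub_ne_zero.mpr h1)).comp_hasDerivAt t (hy.const_sub x)
  have a2 := (hasFDerivAt_inv_nrm (sub_ne_zero.mpr h2)).comp_hasDerivAt t (hz.const_sub x)
  have a3 := (hasFDerivAt_inv_nrm (sub_ne_zero.mpr h3)).comp_hasDerivAt t (hy.sub hz)
  have a4 := hy.norm_sq.const_mul 2
  have hw := hz.sub_const e
  have a5 := (hasDerivAt_const t e).inner ℝ hw
  have a6 := ((a5.const_mul (-(5 / 4))).add ((a5.pow 2).const_mul (3 / 2))).sub hw.norm_sq
  have a7 := (((a1.add a2).add a3).add a4).sub a6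
  refine HasDerivAt.congr_deriv (f := fun s : ℝ => phi e x (y + s • b) (z + s • c)) a7 ?_
  have e1 : frc (y + t • b - x) = -frc (x - (y + t • b)) := by rw [← frc_neg, neg_sub]
  have e2 : frc (z + t • c - x) = -frc (x - (z + t • c)) := by rw [← frc_neg, neg_sub]
  have e3 : frc (z + t • c - (y + t • b)) = -frc (y + t • b - (z + t • c)) := by
    rw [← frc_neg, neg_sub]
  simp only [grd, guz, e1, e2, e3, dop_apply, innerSL_apply_apply, inner_neg_right,
    inner_sub_right, inner_add_left, inner_neg_left, inner_sub_left, real_inner_smul_left,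
    inner_zero_left]
  push_cast
  ring

/-- Strict minimality of critical points of `phi e x` near the base configuration. -/
theorem phi_strict_min {e : V} (he : ‖e‖ = 1) : ∃ r : ℝ, 0 < r ∧ r ≤ 1 / 4 ∧
    ∀ x ∈ ball (-e) r, ∀ y ∈ ball (0 : V) r, ∀ z ∈ ball e r, ∀ y' ∈ ball (0 : V) r,
      ∀ z' ∈ ball e r, grd e (y, x, z) = 0 → (y', z') ≠ (y, z) → phi e x y z < phi e x y' z' := by
  have hs : HasStrictFDerivAt (grd e) (lin e) ((0 : V), -e, e) :=
    (contDiffAt_grd (n := 1) he).hasStrictFDerivAt' (hasFDerivAt_grd he) one_ne_zero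
  have h16 := hs.isLittleO.def (show (0 : ℝ) < 1 / 16 by norm_num)
  rw [Metric.eventually_nhds_iff_ball] at h16
  obtain ⟨r0, hr0, hball⟩ := h16
  refine ⟨min r0 (1 / 4), lt_min hr0 (by norm_num), min_le_right _ _, ?_⟩
  intro x hx y hy z hz y' hy' z' hz' hcrit hne
  set r := min r0 (1 / 4) with hr
  have hr1 : r ≤ r0 := min_le_left _ _
  have hr2 : r ≤ 1 / 4 := min_le_right _ _
  set b := y' - y with hb
  set c := z' - z with hc
  have hyt : ∀ t ∈ Set.Icc (0 : ℝ) 1, y + t • b ∈ ball (0 : V) r := fun t ht =>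
    (convex_ball (0 : V) r).add_smul_sub_mem hy hy' ht
  have hzt : ∀ t ∈ Set.Icc (0 : ℝ) 1, z + t • c ∈ ball e r := fun t ht =>
    (convex_ball e r).add_smul_sub_mem hz hz' ht
  have far : ∀ (p q u v : V), u ∈ ball p r → v ∈ ball q r → 1 ≤ ‖p - q‖ → u ≠ v := by
    intro p q u v hu hv hpq huv
    subst huv
    have := dist_triangle_left p q u
    rw [mem_ball] at hu hv
    rw [dist_eq_norm] at this
    linarith
  have hder : ∀ t ∈ Set.Icc (0 : ℝ) 1, HasDerivAt (fun s : ℝ => phi e x (y + s • b) (z + s • c))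
      (⟪(grd e (y + t • b, x, z + t • c)).1, b⟫ + ⟪(grd e (y + t • b, x, z + t • c)).2, c⟫) t := by
    intro t ht
    refine hasDerivAt_phi e x y z b c t (far _ _ _ _ hx (hyt t ht) (by simp [he]))
      (far _ _ _ _ hx (hzt t ht) ?_) (far _ _ _ _ (hyt t ht) (hzt t ht) (by simp [he]))
    rw [← neg_add', norm_neg, ← two_smul ℝ e, norm_smul, he]
    norm_num
  obtain ⟨t, ht, hslope⟩ := exists_hasDerivAt_eq_slope
    (fun s : ℝ => phi e x (y + s • b) (z + s • c)) _ (zero_lt_one' ℝ)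
    (fun t ht => (hder t ht).continuousAt.continuousWithinAt)
    (fun t ht => hder t (Set.Ioo_subset_Icc_self ht))
  have ht' := Set.Ioo_subset_Icc_self ht
  have hpos : 0 < ⟪(grd e (y + t • b, x, z + t • c)).1, b⟫
      + ⟪(grd e (y + t • b, x, z + t • c)).2, c⟫ := by
    have hmem : ((y + t • b, x, z + t • c), (y, x, z)) ∈
        ball ((((0 : V), -e, e), ((0 : V), -e, e)) : (V × V × V) × (V × V × V)) r0 := by
      rw [← ball_prod_same, ← ball_prod_same, ← ball_prod_same]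
      exact ⟨⟨ball_subset_ball hr1 (hyt t ht'), ball_subset_ball hr1 hx,
        ball_subset_ball hr1 (hzt t ht')⟩,
        ⟨ball_subset_ball hr1 hy, ball_subset_ball hr1 hx, ball_subset_ball hr1 hz⟩⟩
    have hest := hball _ hmem
    have hdiff : ((y + t • b, x, z + t • c) : V × V × V) - (y, x, z) = t • (b, 0, c) := by
      simp
    simp only [hcrit, sub_zero, hdiff, map_smul] at hest
    set G := grd e (y + t • b, x, z + t • c) with hG
    set L := lin e (b, 0, c) with hL
    have hco : 1 / 4 * (‖b‖ ^ 2 + ‖c‖ ^ 2) ≤ ⟪L.1, b⟫ + ⟪L.2, c⟫ := lin_coercive he b c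
    set m := max ‖b‖ ‖c‖ with hm
    have hnorm : ‖t • ((b, 0, c) : V × V × V)‖ = t * m := by
      rw [norm_smul, Real.norm_of_nonneg ht.1.le]
      simp [Prod.norm_def, hm]
    rw [hnorm] at hest
    have e1 : ‖(G - t • L).1‖ ≤ 1 / 16 * (t * m) := (norm_fst_le _).trans hest
    have e2 : ‖(G - t • L).2‖ ≤ 1 / 16 * (t * m) := (norm_snd_le _).trans hest
    have i1 := abs_real_inner_le_norm (G - t • L).1 b
    have i2 := abs_real_inner_le_norm (G - t • L).2 c
    have hbm : ‖b‖ ≤ m := le_max_left _ _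
    have hcm : ‖c‖ ≤ m := le_max_right _ _
    have hm0 : 0 < m := by
      by_contra hcon
      push Not at hcon
      have hb0 : b = 0 := norm_le_zero_iff.mp (hbm.trans hcon)
      have hc0 : c = 0 := norm_le_zero_iff.mp (hcm.trans hcon)
      apply hne
      rw [Prod.mk.injEq]
      exact ⟨sub_eq_zero.mp hb0, sub_eq_zero.mp hc0⟩
    have hm2 : m ^ 2 ≤ ‖b‖ ^ 2 + ‖c‖ ^ 2 := by
      rcases max_choice ‖b‖ ‖c‖ with h | h <;> rw [hm, h] <;> nlinarith [sq_nonneg ‖b‖, sq_nonneg ‖c‖]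
    have j1 : -(1 / 16 * (t * m) * m) ≤ ⟪(G - t • L).1, b⟫ := by
      have := mul_le_mul e1 hbm (norm_nonneg _) (by have := ht.1; positivity)
      linarith [neg_abs_le ⟪(G - t • L).1, b⟫]
    have j2 : -(1 / 16 * (t * m) * m) ≤ ⟪(G - t • L).2, c⟫ := by
      have := mul_le_mul e2 hcm (norm_nonneg _) (by have := ht.1; positivity)
      linarith [neg_abs_le ⟪(G - t • L).2, c⟫]
    simp only [Prod.fst_sub, Prod.snd_sub, Prod.smul_fst, Prod.smul_snd, inner_sub_left,
      real_inner_smul_left] at j1 j2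
    have k1 : t * (1 / 4 * m ^ 2) ≤ t * (⟪L.1, b⟫ + ⟪L.2, c⟫) :=
      mul_le_mul_of_nonneg_left (by linarith) ht.1.le
    have k2 : 0 < t * m ^ 2 := mul_pos ht.1 (pow_pos hm0 2)
    nlinarith
  rw [hslope] at hpos
  simp only [one_smul, zero_smul, add_zero, sub_zero, div_one, hb, hc, add_sub_cancel] at hpos
  linarith

/-- The contact sheet: analytic maps `X`, `Z` with `grd e (y, X y, Z y) = 0` near `y = 0`. -/
theorem exists_sheet [FiniteDimensional ℝ V] {e : V} (he : ‖e‖ = 1) :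
    ∃ X Z : V → V, X 0 = -e ∧ Z 0 = e ∧ ContDiffAt ℝ ω X 0 ∧ ContDiffAt ℝ ω Z 0 ∧
      HasFDerivAt X (dop e) 0 ∧ HasFDerivAt Z (dop e) 0 ∧
      ∀ᶠ y in 𝓝 (0 : V), grd e (y, X y, Z y) = 0 := by
  have : CompleteSpace V := FiniteDimensional.complete ℝ V
  have hc := contDiffAt_grd (n := ω) he
  have hfd : fderiv ℝ (grd e) ((0 : V), -e, e) = lin e := (hasFDerivAt_grd he).fderiv
  have hinj : Function.Injective ((lin e).comp (ContinuousLinearMap.inr ℝ V (V × V))) := by
    rw [injective_iff_map_eq_zero]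
    rintro ⟨a, c⟩ h
    have := lin_inr_injective he a c (by simpa using h)
    simp [this.1, this.2]
  have hinv : ((lin e).comp (ContinuousLinearMap.inr ℝ V (V × V))).IsInvertible :=
    ⟨(LinearEquiv.ofInjectiveEndo _ hinj).toContinuousLinearEquiv, by ext <;> rfl⟩
  have hinv' : ((fderiv ℝ (grd e) ((0 : V), -e, e)).comp
      (ContinuousLinearMap.inr ℝ V (V × V))).IsInvertible := by rw [hfd]; exact hinv
  have hω : (ω : WithTop ℕ∞) ≠ 0 := by simp
  set ψ := hc.implicitFunction hω hinv' with hψ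
  have h0 : ψ 0 = (-e, e) := hc.implicitFunction_apply_self hω hinv'
  have h1 : ContDiffAt ℝ ω ψ 0 := hc.contDiffAt_implicitFunction hω hinv'
  have h2 : HasFDerivAt ψ ((dop e).prod (dop e)) 0 := by
    refine HasFDerivAt.congr_fderiv
      (hc.hasStrictFDerivAt_implicitFunction hω hinv').hasFDerivAt ?_
    rw [hfd]
    ext1 b
    apply hinj
    have hk := lin_kernel he b
    have hsplit : ((b, dop e b, dop e b) : V × V × V) = (b, 0) + (0, dop e b, dop e b) := by simp
    rw [hsplit, map_add] at hk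
    simp only [ContinuousLinearMap.comp_apply, neg_apply, map_neg]
    rw [← ContinuousLinearMap.comp_apply, hinv.self_apply_inverse]
    simp only [ContinuousLinearMap.inl_apply, ContinuousLinearMap.inr_apply,
      ContinuousLinearMap.prod_apply]
    exact neg_eq_of_add_eq_zero_right hk
  refine ⟨fun y => (ψ y).1, fun y => (ψ y).2, by simp [h0], by simp [h0], h1.fst, h1.snd,
    h2.fst, h2.snd, ?_⟩
  have h3 := hc.eventually_apply_implicitFunction hω hinv'
  rw [grd_base he] at h3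
  exact h3

end Vale.Agent.P121
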