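import Vale.Agent.P121.Local
import Vale.Agent.P121.Abstract
import Vale.Agent.P121.Density

/-!
Assembly of the counterexample.
-/

namespace Vale.Agent.P121

open MeasureTheory Set Filter Metric
open scoped ENNReal Topology ContDiff RealInnerProductSpace

variable {V : Type*} [NormedAddCommGroup V] [InnerProductSpace ℝ V]

theorem cR_swap (x y z : V) : cR y x z = cR x y z := by
  simp only [cR, norm_sub_rev y x]; ring

theorem cR_swap' (x y z : V) : cR x z y = cR x y z := by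
  simp only [cR, norm_sub_rev z y]; ring

theorem norm_sub_ge {x y a b : V} (hx : ‖x - a‖ < 1 / 100) (hy : ‖y - b‖ < 1 / 100)
    (hab : 1 ≤ ‖a - b‖) : 1 / 2 ≤ ‖x - y‖ := by
  have h : a - b = (x - y) - (x - a) + (y - b) := by abel
  have h1 := norm_add_le ((x - y) - (x - a)) (y - b)
  have h2 := norm_sub_le (x - y) (x - a)
  rw [← h] at h1
  linarith

theorem norm_sub_le' {x y a b : V} (hx : ‖x - a‖ < 1 / 100) (hy : ‖y - b‖ < 1 / 100) :
    ‖x - y‖ < ‖a - b‖ + 1 / 50 := by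
  have h : x - y = (a - b) + (x - a) - (y - b) := by abel
  have h1 := norm_sub_le ((a - b) + (x - a)) (y - b)
  have h2 := norm_add_le (a - b) (x - a)
  rw [← h] at h1
  linarith

theorem continuousAt_uz (e : V) {Z : V → V} {y : V} (hZ : ContinuousAt Z y) :
    ContinuousAt (fun y => uz e (Z y)) y := by
  unfold uz
  fun_prop

theorem continuousAt_phi {e : V} (he : ‖e‖ = 1) {X Z : V → V} {y : V} (hX : ContinuousAt X y)
    (hZ : ContinuousAt Z y) (h0 : ‖y - 0‖ < 1 / 100) (h1 : ‖X y - -e‖ < 1 / 100)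
    (h2 : ‖Z y - e‖ < 1 / 100) : ContinuousAt (fun y => phi e (X y) y (Z y)) y := by
  have a1 := norm_sub_ge h1 h0 (by simp [he])
  have a2 := norm_sub_ge h1 h2 (by
    rw [← neg_add', norm_neg, ← two_smul ℝ e, norm_smul, he]; norm_num)
  have a3 := norm_sub_ge h0 h2 (by simp [he])
  have b1 : ContinuousAt (fun y => ‖X y - y‖⁻¹) y :=
    ContinuousAt.inv₀ (by fun_prop) (by linarith)
  have b2 : ContinuousAt (fun y => ‖X y - Z y‖⁻¹) y :=
    ContinuousAt.inv₀ (by fun_prop) (by linarith)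
  have b3 : ContinuousAt (fun y => ‖y - Z y‖⁻¹) y :=
    ContinuousAt.inv₀ (by fun_prop) (by linarith)
  have b4 : ContinuousAt (fun y : V => 2 * ‖y‖ ^ 2) y := by fun_prop
  exact (((b1.add b2).add b3).add b4).sub (continuousAt_uz e hZ)

theorem sheet_data [FiniteDimensional ℝ V] {e : V} (he : ‖e‖ = 1) :
    ∃ (X Z : V → V) (a c : V → ℝ) (δ : ℝ), 0 < δ ∧ ContDiffAt ℝ ω X 0 ∧ ContDiffAt ℝ ω Z 0 ∧
      HasFDerivAt X (dop e) 0 ∧ HasFDerivAt Z (dop e) 0 ∧
      (∀ y ∈ ball (0 : V) δ, ‖X y - -e‖ < 1 / 100 ∧ ‖Z y - e‖ < 1 / 100 ∧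
        |a y + 3 / 4| < 1 / 50 ∧ |c y + 3 / 4| < 1 / 50 ∧ ContinuousAt a y ∧ ContinuousAt c y) ∧
      (∀ y, cR y (X y) (Z y) = 4 - 2 * ‖y‖ ^ 2 + a y + c y) ∧
      (∀ y ∈ ball (0 : V) δ, ∀ y' ∈ ball (0 : V) δ, ∀ y'' ∈ ball (0 : V) δ,
        (y, Z y'') ≠ (y', Z y') → 4 - 2 * ‖y‖ ^ 2 + a y' + c y'' < cR y (X y') (Z y'')) := by
  obtain ⟨X, Z, hX0, hZ0, hXc, hZc, hXd, hZd, hgrd⟩ := exists_sheet he
  obtain ⟨r, hr, -, hmin⟩ := phi_strict_min he
  set a : V → ℝ := fun y => phi e (X y) y (Z y) - 13 / 4 with ha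
  set c : V → ℝ := fun y => uz e (Z y) - 3 / 4 with hc
  have hη : 0 < min r (1 / 100) := lt_min hr (by norm_num)
  have e0 : ∀ᶠ y in 𝓝 (0 : V), y ∈ ball (0 : V) (min r (1 / 100)) := ball_mem_nhds _ hη
  have e1 : ∀ᶠ y in 𝓝 (0 : V), X y ∈ ball (-e) (min r (1 / 100)) :=
    hXc.continuousAt.eventually (by rw [hX0]; exact ball_mem_nhds _ hη)
  have e2 : ∀ᶠ y in 𝓝 (0 : V), Z y ∈ ball e (min r (1 / 100)) :=
    hZc.continuousAt.eventually (by rw [hZ0]; exact ball_mem_nhds _ hη)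
  have e3 : ∀ᶠ y in 𝓝 (0 : V), ContDiffAt ℝ ω X y := hXc.eventually (by simp)
  have e4 : ∀ᶠ y in 𝓝 (0 : V), ContDiffAt ℝ ω Z y := hZc.eventually (by simp)
  have ha0 : ContinuousAt a 0 :=
    (continuousAt_phi he hXc.continuousAt hZc.continuousAt (by simp) (by simp [hX0])
      (by simp [hZ0])).sub continuousAt_const
  have hc0 : ContinuousAt c 0 := (continuousAt_uz e hZc.continuousAt).sub continuousAt_const
  have h2 : ‖-e - e‖ = 2 := by
    rw [← neg_add', norm_neg, ← two_smul ℝ e, norm_smul, he]; norm_num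
  have va : a 0 = -(3 / 4) := by
    simp only [ha, phi, cR, uz, hX0, hZ0, h2, sub_zero, zero_sub, norm_neg, he, sub_self,
      inner_zero_right, norm_zero]
    norm_num
  have vc : c 0 = -(3 / 4) := by
    simp only [hc, uz, hZ0, sub_self, inner_zero_right, norm_zero]
    norm_num
  have e5 : ∀ᶠ y in 𝓝 (0 : V), a y ∈ ball (-(3 / 4) : ℝ) (1 / 50) :=
    ha0.eventually (by rw [va]; exact ball_mem_nhds _ (by norm_num))
  have e6 : ∀ᶠ y in 𝓝 (0 : V), c y ∈ ball (-(3 / 4) : ℝ) (1 / 50) :=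
    hc0.eventually (by rw [vc]; exact ball_mem_nhds _ (by norm_num))
  obtain ⟨δ, hδ, hall⟩ := Metric.eventually_nhds_iff_ball.mp
    (e0.and (e1.and (e2.and (e3.and (e4.and (e5.and (e6.and hgrd)))))))
  refine ⟨X, Z, a, c, δ, hδ, hXc, hZc, hXd, hZd, ?_, ?_, ?_⟩
  · intro y hy
    obtain ⟨f0, f1, f2, f3, f4, f5, f6, -⟩ := hall y hy
    rw [mem_ball, dist_eq_norm, lt_min_iff] at f0 f1 f2
    rw [mem_ball, Real.dist_eq, sub_neg_eq_add] at f5 f6
    exact ⟨f1.2, f2.2, f5, f6,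
      (continuousAt_phi he f3.continuousAt f4.continuousAt f0.2 f1.2 f2.2).sub continuousAt_const,
      (continuousAt_uz e f4.continuousAt).sub continuousAt_const⟩
  · intro y
    simp only [ha, hc, phi, cR_swap (X y) y (Z y)]
    ring
  · intro y hy y' hy' y'' hy'' hne
    have hsub : ∀ p : V, ball p (min r (1 / 100)) ⊆ ball p r :=
      fun p => ball_subset_ball (min_le_left _ _)
    have := hmin (X y') (hsub _ (hall y' hy').2.1) y' (hsub _ (hall y' hy').1) (Z y')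
      (hsub _ (hall y' hy').2.2.1) y (hsub _ (hall y hy).1) (Z y'') (hsub _ (hall y'' hy'').2.2.1)
      (hall y' hy').2.2.2.2.2.2.2 hne
    simp only [ha, hc]
    rw [← cR_swap y (X y') (Z y'')]
    unfold phi at this ⊢
    linarith

theorem coulomb_eq {x y z : V} (h1 : x ≠ y) (h2 : x ≠ z) (h3 : y ≠ z) :
    coulomb x y z = ENNReal.ofReal (cR x y z) := by
  have p1 : 0 < ‖x - y‖ := norm_pos_iff.mpr (sub_ne_zero.mpr h1)
  have p2 : 0 < ‖x - z‖ := norm_pos_iff.mpr (sub_ne_zero.mpr h2)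
  have p3 : 0 < ‖y - z‖ := norm_pos_iff.mpr (sub_ne_zero.mpr h3)
  simp only [coulomb, cR, edist_dist, dist_eq_norm]
  rw [ENNReal.ofReal_add (by positivity) (by positivity),
    ENNReal.ofReal_add (by positivity) (by positivity), ENNReal.ofReal_inv_of_pos p1,
    ENNReal.ofReal_inv_of_pos p2, ENNReal.ofReal_inv_of_pos p3]

theorem coulomb_ge_of_close {x y : V} (z : V) (h : ‖x - y‖ < 1 / 50) : 50 ≤ coulomb x y z := by
  have h1 : edist x y ≤ (50 : ℝ≥0∞)⁻¹ := by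
    rw [edist_dist, dist_eq_norm]
    calc ENNReal.ofReal ‖x - y‖ ≤ ENNReal.ofReal (50⁻¹) :=
          ENNReal.ofReal_le_ofReal (by linarith)
      _ = (50 : ℝ≥0∞)⁻¹ := by rw [ENNReal.ofReal_inv_of_pos (by norm_num)]; simp
  have h2 : (50 : ℝ≥0∞) ≤ (edist x y)⁻¹ := ENNReal.le_inv_iff_le_inv.mpr h1
  exact h2.trans (le_self_add.trans le_self_add)

theorem tri_swap (j k l : Fin 5) : Tri k j l ↔ Tri j k l := by revert j k l; decide

theorem tri_swap' (j k l : Fin 5) : Tri j l k ↔ Tri j k l := by revert j k l; decide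

/-- The real inequalities for three points in three different clusters. -/
theorem real_good {Ω : Type*} (p : Fin 5 → Ω → V) (base : Fin 5 → V) (v : Fin 5 → Ω → ℝ)
    (hclose : ∀ j y, ‖p j y - base j‖ < 1 / 100)
    (hsep : ∀ j k, j ≠ k → 1 ≤ ‖base j - base k‖)
    (h0 : ∀ j, ‖base 0 - base j‖ ≤ 1)
    (hcross : ∀ j k : Fin 5, (j = 1 ∨ j = 2) → (k = 3 ∨ k = 4) → ‖base j - base k‖ ≤ 3 / 2)
    (hv0 : ∀ y, v 0 y ≤ 4) (hv : ∀ j y, j ≠ 0 → v j y < -(3 / 4) + 1 / 50)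
    (k012 : ∀ y y' y'', v 0 y + v 1 y' + v 2 y'' ≤ cR (p 0 y) (p 1 y') (p 2 y'') ∧
      (cR (p 0 y) (p 1 y') (p 2 y'') ≤ v 0 y + v 1 y' + v 2 y'' → y = y' ∧ y = y''))
    (k034 : ∀ y y' y'', v 0 y + v 3 y' + v 4 y'' ≤ cR (p 0 y) (p 3 y') (p 4 y'') ∧
      (cR (p 0 y) (p 3 y') (p 4 y'') ≤ v 0 y + v 3 y' + v 4 y'' → y = y' ∧ y = y''))
    (j k l : Fin 5) (hjk : j ≠ k) (hjl : j ≠ l) (hkl : k ≠ l) :
    ∀ y y' y'', v j y + v k y' + v l y'' ≤ cR (p j y) (p k y') (p l y'') ∧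
      (cR (p j y) (p k y') (p l y'') ≤ v j y + v k y' + v l y'' →
        y = y' ∧ y = y'' ∧ Tri j k l) := by
  set Q : Fin 5 → Fin 5 → Fin 5 → Prop := fun j k l =>
    ∀ y y' y'', v j y + v k y' + v l y'' ≤ cR (p j y) (p k y') (p l y'') ∧
      (cR (p j y) (p k y') (p l y'') ≤ v j y + v k y' + v l y'' →
        y = y' ∧ y = y'' ∧ Tri j k l) with hQ
  have s1 : ∀ j k l, Q j k l → Q k j l := by
    intro j k l h y y' y''
    obtain ⟨h1, h2⟩ := h y' y y''
    rw [cR_swap, tri_swap]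
    refine ⟨by linarith, fun h3 => ?_⟩
    obtain ⟨h4, h5, h6⟩ := h2 (by linarith)
    exact ⟨h4.symm, h4.symm.trans h5, h6⟩
  have s2 : ∀ j k l, Q j k l → Q j l k := by
    intro j k l h y y' y''
    obtain ⟨h1, h2⟩ := h y y'' y'
    rw [cR_swap', tri_swap']
    refine ⟨by linarith, fun h3 => ?_⟩
    obtain ⟨h4, h5, h6⟩ := h2 (by linarith)
    exact ⟨h5, h4, h6⟩
  have strict : ∀ j k l, (∀ y y' y'', v j y + v k y' + v l y'' < cR (p j y) (p k y') (p l y'')) →
      Q j k l := fun j k l h y y' y'' =>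
    ⟨(h y y' y'').le, fun h' => absurd h' (not_le.mpr (h y y' y''))⟩
  have inv_ge : ∀ (j k : Fin 5) (y y' : Ω) (D : ℝ), j ≠ k → ‖base j - base k‖ ≤ D →
      (D + 1 / 50)⁻¹ ≤ ‖p j y - p k y'‖⁻¹ := by
    intro j k y y' D hne hD
    have h1 := norm_sub_ge (hclose j y) (hclose k y') (hsep j k hne)
    have h2 := norm_sub_le' (hclose j y) (hclose k y')
    exact inv_anti₀ (by linarith) (by linarith)
  have neg : ∀ j k l : Fin 5, j ≠ 0 → k ≠ 0 → l ≠ 0 → Q j k l := by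
    intro j k l hj hk hl
    refine strict j k l fun y y' y'' => ?_
    have : 0 ≤ cR (p j y) (p k y') (p l y'') := by unfold cR; positivity
    linarith [hv j y hj, hv k y' hk, hv l y'' hl]
  have cross : ∀ k l : Fin 5, (k = 1 ∨ k = 2) → (l = 3 ∨ l = 4) → Q 0 k l := by
    intro k l hk hl
    have hk0 : k ≠ 0 := by rcases hk with rfl | rfl <;> decide
    have hl0 : l ≠ 0 := by rcases hl with rfl | rfl <;> decide
    have hkl : k ≠ l := by rcases hk with rfl | rfl <;> rcases hl with rfl | rfl <;> decide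
    refine strict 0 k l fun y y' y'' => ?_
    have a1 := inv_ge 0 k y y' 1 hk0.symm (h0 k)
    have a2 := inv_ge 0 l y y'' 1 hl0.symm (h0 l)
    have a3 := inv_ge k l y' y'' (3 / 2) hkl (hcross k l hk hl)
    unfold cR
    norm_num at a1 a2 a3
    linarith [hv0 y, hv k y' hk0, hv l y'' hl0]
  have q012 : Q 0 1 2 := fun y y' y'' => ⟨(k012 y y' y'').1, fun h =>
    ⟨((k012 y y' y'').2 h).1, ((k012 y y' y'').2 h).2, by decide⟩⟩
  have q034 : Q 0 3 4 := fun y y' y'' => ⟨(k034 y y' y'').1, fun h =>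
    ⟨((k034 y y' y'').2 h).1, ((k034 y y' y'').2 h).2, by decide⟩⟩
  have zero : ∀ k l : Fin 5, k ≠ 0 → l ≠ 0 → k ≠ l → Q 0 k l := by
    intro k l hk hl hkl
    have hcases : ∀ k l : Fin 5, k ≠ 0 → l ≠ 0 → k ≠ l → (k = 1 ∧ l = 2) ∨ (k = 2 ∧ l = 1) ∨
        (k = 3 ∧ l = 4) ∨ (k = 4 ∧ l = 3) ∨ ((k = 1 ∨ k = 2) ∧ (l = 3 ∨ l = 4)) ∨
        ((l = 1 ∨ l = 2) ∧ (k = 3 ∨ k = 4)) := by decide
    rcases hcases k l hk hl hkl with ⟨rfl, rfl⟩ | ⟨rfl, rfl⟩ | ⟨rfl, rfl⟩ | ⟨rfl, rfl⟩ | h | h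
    · exact q012
    · exact s2 _ _ _ q012
    · exact q034
    · exact s2 _ _ _ q034
    · exact cross k l h.1 h.2
    · exact s2 _ _ _ (cross l k h.1 h.2)
  change Q j k l
  by_cases hj : j = 0
  · subst hj; exact zero k l hjk.symm hjl.symm hkl
  by_cases hk : k = 0
  · subst hk; exact s1 _ _ _ (zero j l hj hkl.symm hjl)
  by_cases hl : l = 0
  · subst hl; exact s2 _ _ _ (s1 _ _ _ (zero j k hj hk hjk))
  exact neg j k l hj hk hl

theorem cluster_inj {Ω : Type*} (p : Fin 5 → Ω → V) (base : Fin 5 → V)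
    (hclose : ∀ j y, ‖p j y - base j‖ < 1 / 100)
    (hsep : ∀ j k, j ≠ k → 1 ≤ ‖base j - base k‖) {j k : Fin 5} (hjk : j ≠ k) (y y' : Ω) :
    p j y ≠ p k y' := by
  intro h
  have := norm_sub_ge (hclose j y) (hclose k y') (hsep j k hjk)
  rw [h, sub_self, norm_zero] at this
  linarith

/-- The dual inequalities in `ℝ≥0∞`, collisions included. -/
theorem ennreal_good {Ω : Type*} (p : Fin 5 → Ω → V) (base : Fin 5 → V) (v : Fin 5 → Ω → ℝ)
    (hclose : ∀ j y, ‖p j y - base j‖ < 1 / 100)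
    (hsep : ∀ j k, j ≠ k → 1 ≤ ‖base j - base k‖)
    (hlo : ∀ j y, -1 ≤ v j y) (hhi : ∀ j y, v j y ≤ 4)
    (hreal : ∀ j k l : Fin 5, j ≠ k → j ≠ l → k ≠ l →
      ∀ y y' y'', v j y + v k y' + v l y'' ≤ cR (p j y) (p k y') (p l y'') ∧
      (cR (p j y) (p k y') (p l y'') ≤ v j y + v k y' + v l y'' →
        y = y' ∧ y = y'' ∧ Tri j k l)) (j k l : Fin 5) (y y' y'' : Ω) :
    ENNReal.ofReal (v j y + 1) + ENNReal.ofReal (v k y' + 1) + ENNReal.ofReal (v l y'' + 1)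
        ≤ coulomb (p j y) (p k y') (p l y'') + 3 ∧
      (coulomb (p j y) (p k y') (p l y'') + 3 ≤ ENNReal.ofReal (v j y + 1)
        + ENNReal.ofReal (v k y' + 1) + ENNReal.ofReal (v l y'' + 1) →
        y = y' ∧ y = y'' ∧ Tri j k l) := by
  have n1 : 0 ≤ v j y + 1 := by linarith [hlo j y]
  have n2 : 0 ≤ v k y' + 1 := by linarith [hlo k y']
  have n3 : 0 ≤ v l y'' + 1 := by linarith [hlo l y'']
  rw [← ENNReal.ofReal_add n1 n2, ← ENNReal.ofReal_add (add_nonneg n1 n2) n3]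
  have same : ∀ (j : Fin 5) (y y' : Ω), ‖p j y - p j y'‖ < 1 / 50 := by
    intro j y y'
    simpa using norm_sub_le' (hclose j y) (hclose j y')
  have coll : 50 ≤ coulomb (p j y) (p k y') (p l y'') →
      ENNReal.ofReal (v j y + 1 + (v k y' + 1) + (v l y'' + 1))
        ≤ coulomb (p j y) (p k y') (p l y'') + 3 ∧
      (coulomb (p j y) (p k y') (p l y'') + 3 ≤
        ENNReal.ofReal (v j y + 1 + (v k y' + 1) + (v l y'' + 1)) →
        y = y' ∧ y = y'' ∧ Tri j k l) := by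
    intro h50
    have h1 : ENNReal.ofReal (v j y + 1 + (v k y' + 1) + (v l y'' + 1)) < 50 := by
      have : ENNReal.ofReal (v j y + 1 + (v k y' + 1) + (v l y'' + 1)) < ENNReal.ofReal 50 := by
        rw [ENNReal.ofReal_lt_ofReal_iff (by norm_num)]
        linarith [hhi j y, hhi k y', hhi l y'']
      simpa using this
    have h2 := h1.trans_le (h50.trans (le_self_add (b := 3)))
    exact ⟨h2.le, fun h => absurd h (not_le.mpr h2)⟩
  by_cases hjk : j = k
  · subst hjk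
    exact coll (coulomb_ge_of_close _ (same j y y'))
  by_cases hjl : j = l
  · subst hjl
    refine coll ?_
    rw [← coulomb_rot, ← coulomb_rot]
    exact coulomb_ge_of_close _ (same j y'' y)
  by_cases hkl : k = l
  · subst hkl
    refine coll ?_
    rw [← coulomb_rot]
    exact coulomb_ge_of_close _ (same k y' y'')
  have hc0 : 0 ≤ cR (p j y) (p k y') (p l y'') := by unfold cR; positivity
  have h3 : (3 : ℝ≥0∞) = ENNReal.ofReal 3 := by simp
  rw [coulomb_eq (cluster_inj p base hclose hsep hjk _ _) (cluster_inj p base hclose hsep hjl _ _)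
    (cluster_inj p base hclose hsep hkl _ _), h3, ← ENNReal.ofReal_add hc0 (by norm_num),
    ENNReal.ofReal_le_ofReal_iff (by linarith), ENNReal.ofReal_le_ofReal_iff (by linarith)]
  obtain ⟨r1, r2⟩ := hreal j k l hjk hjl hkl y y' y''
  exact ⟨by linarith, fun h => r2 (by linarith)⟩

theorem norm_pm {e₁ e₂ : V} (h₁ : ‖e₁‖ = 1) (h₂ : ‖e₂‖ = 1) (h : ⟪e₁, e₂⟫ = 0) :
    1 ≤ ‖e₁ - e₂‖ ∧ ‖e₁ - e₂‖ ≤ 3 / 2 := by
  have h3 : ‖e₁ - e₂‖ ^ 2 = 2 := by rw [norm_sub_sq_real, h₁, h₂, h]; norm_num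
  have h4 := norm_nonneg (e₁ - e₂)
  constructor <;> nlinarith

theorem main [FiniteDimensional ℝ V] [MeasurableSpace V] [BorelSpace V] (m : Measure V)
    [m.IsAddHaarMeasure] {e₁ e₂ : V} (h₁ : ‖e₁‖ = 1) (h₂ : ‖e₂‖ = 1) (h12 : ⟪e₁, e₂⟫ = 0) :
    ∃ μ : Measure V, SmoothDensity m μ ∧ IsProbabilityMeasure μ ∧ kantorovich μ < ⊤ ∧
      ∀ T₂ T₃ : V → V, Measurable T₂ → Measurable T₃ → μ.map T₂ = μ → μ.map T₃ = μ →
        kantorovich μ < ∫⁻ x, coulomb x (T₂ x) (T₃ x) ∂μ := by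
  obtain ⟨X₁, Z₁, a₁, c₁, δ₁, hδ₁, cX₁, cZ₁, dX₁, dZ₁, A₁, B₁, C₁⟩ := sheet_data h₁
  obtain ⟨X₂, Z₂, a₂, c₂, δ₂, hδ₂, cX₂, cZ₂, dX₂, dZ₂, A₂, B₂, C₂⟩ := sheet_data h₂
  obtain ⟨η₁, hη₁, P₁⟩ := smooth_push m cX₁ dX₁ (dop_injective h₁)
  obtain ⟨η₂, hη₂, P₂⟩ := smooth_push m cZ₁ dZ₁ (dop_injective h₁)
  obtain ⟨η₃, hη₃, P₃⟩ := smooth_push m cX₂ dX₂ (dop_injective h₂)
  obtain ⟨η₄, hη₄, P₄⟩ := smooth_push m cZ₂ dZ₂ (dop_injective h₂)
  obtain ⟨δ, hδ, l0, l1, l2, n1, n2, n3, n4⟩ : ∃ δ : ℝ, 0 < δ ∧ δ ≤ 1 / 100 ∧ δ ≤ δ₁ ∧ δ ≤ δ₂ ∧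
      δ ≤ η₁ ∧ δ ≤ η₂ ∧ δ ≤ η₃ ∧ δ ≤ η₄ :=
    ⟨min (min (min (1 / 100) δ₁) (min δ₂ η₁)) (min (min η₂ η₃) η₄), by positivity,
      by simp, by simp, by simp, by simp, by simp, by simp, by simp⟩
  have sub : ∀ {r : ℝ}, δ ≤ r → ∀ y : ball (0 : V) δ, (y : V) ∈ ball (0 : V) r :=
    fun h y => ball_subset_ball h y.2
  let q : Fin 5 → V → V := ![fun y => y, X₁, Z₁, X₂, Z₂]
  let w : Fin 5 → V → ℝ := ![fun y => 4 - 2 * ‖y‖ ^ 2, a₁, c₁, a₂, c₂]
  let base : Fin 5 → V := ![0, -e₁, e₁, -e₂, e₂]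
  let p : Fin 5 → ball (0 : V) δ → V := fun j y => q j y
  let v : Fin 5 → ball (0 : V) δ → ℝ := fun j y => w j y
  have hsmall : ∀ y : ball (0 : V) δ, ‖(y : V)‖ < 1 / 100 := fun y => by
    simpa using sub l0 y
  have hclose : ∀ j y, ‖p j y - base j‖ < 1 / 100 := by
    intro j y
    fin_cases j
    · simpa [p, q, base] using hsmall y
    · exact (A₁ y (sub l1 y)).1
    · exact (A₁ y (sub l1 y)).2.1
    · exact (A₂ y (sub l2 y)).1
    · exact (A₂ y (sub l2 y)).2.1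
  have t1 := norm_pm h₁ h₂ h12
  have t2 := norm_pm (e₁ := -e₁) (by simpa using h₁) h₂ (by simpa using h12)
  have t3 := norm_pm (e₂ := -e₂) h₁ (by simpa using h₂) (by simpa using h12)
  have t4 := norm_pm (e₁ := -e₁) (e₂ := -e₂) (by simpa using h₁) (by simpa using h₂)
    (by simpa using h12)
  have two : ∀ e : V, ‖e‖ = 1 → 1 ≤ ‖-e - e‖ := by
    intro e he
    rw [← neg_add', norm_neg, ← two_smul ℝ e, norm_smul, he]; norm_num
  have hsep' : ∀ j k : Fin 5, j < k → 1 ≤ ‖base j - base k‖ := by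
    intro j k hjk
    fin_cases j <;> fin_cases k <;> first
      | exact absurd hjk (by decide)
      | exact t1.1 | exact t2.1 | exact t3.1 | exact t4.1
      | exact two _ h₁ | exact two _ h₂
      | simp [base, h₁, h₂]
  have hsep : ∀ j k, j ≠ k → 1 ≤ ‖base j - base k‖ := by
    intro j k hjk
    rcases lt_or_gt_of_ne hjk with h | h
    · exact hsep' j k h
    · rw [norm_sub_rev]; exact hsep' k j h
  have h0 : ∀ j, ‖base 0 - base j‖ ≤ 1 := by
    intro j
    fin_cases j <;> simp [base, h₁, h₂]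
  have hcross : ∀ j k : Fin 5, (j = 1 ∨ j = 2) → (k = 3 ∨ k = 4) →
      ‖base j - base k‖ ≤ 3 / 2 := by
    rintro j k (rfl | rfl) (rfl | rfl)
    · exact t4.2
    · exact t2.2
    · exact t3.2
    · exact t1.2
  have hvabs : ∀ j y, j ≠ 0 → |v j y + 3 / 4| < 1 / 50 := by
    intro j y hj
    fin_cases j
    · exact absurd rfl hj
    · exact (A₁ y (sub l1 y)).2.2.1
    · exact (A₁ y (sub l1 y)).2.2.2.1
    · exact (A₂ y (sub l2 y)).2.2.1
    · exact (A₂ y (sub l2 y)).2.2.2.1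
  have hv0 : ∀ y, v 0 y ≤ 4 ∧ -1 ≤ v 0 y := by
    intro y
    change 4 - 2 * ‖(y : V)‖ ^ 2 ≤ 4 ∧ -1 ≤ 4 - 2 * ‖(y : V)‖ ^ 2
    have := hsmall y
    have := norm_nonneg (y : V)
    constructor <;> nlinarith
  have hlo : ∀ j y, -1 ≤ v j y := by
    intro j y
    by_cases hj : j = 0
    · subst hj; exact (hv0 y).2
    · linarith [(abs_lt.mp (hvabs j y hj)).1]
  have hhi : ∀ j y, v j y ≤ 4 := by
    intro j y
    by_cases hj : j = 0
    · subst hj; exact (hv0 y).1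
    · linarith [(abs_lt.mp (hvabs j y hj)).2]
  have key : ∀ (X Z : V → V) (a c : V → ℝ), InjOn Z (ball 0 δ) →
      (∀ y, cR y (X y) (Z y) = 4 - 2 * ‖y‖ ^ 2 + a y + c y) →
      (∀ y y' y'' : ball (0 : V) δ, ((y : V), Z y'') ≠ ((y' : V), Z y') →
        4 - 2 * ‖(y : V)‖ ^ 2 + a y' + c y'' < cR (y : V) (X y') (Z y'')) →
      ∀ y y' y'' : ball (0 : V) δ,
        4 - 2 * ‖(y : V)‖ ^ 2 + a y' + c y'' ≤ cR (y : V) (X y') (Z y'') ∧
        (cR (y : V) (X y') (Z y'') ≤ 4 - 2 * ‖(y : V)‖ ^ 2 + a y' + c y'' → y = y' ∧ y = y'') := by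
    intro X Z a c hZ hB hC y y' y''
    by_cases hne : ((y : V), Z y'') = ((y' : V), Z y')
    · rw [Prod.mk.injEq] at hne
      have e1 : y = y' := Subtype.ext hne.1
      have e2 : y'' = y' := Subtype.ext (hZ y''.2 y'.2 hne.2)
      subst e1 e2
      exact ⟨(hB _).ge, fun _ => ⟨rfl, rfl⟩⟩
    · have := hC y y' y'' hne
      exact ⟨this.le, fun h => absurd h (not_le.mpr this)⟩
  have hreal := real_good p base v hclose hsep h0 hcross (fun y => (hv0 y).1)
    (fun j y hj => by linarith [(abs_lt.mp (hvabs j y hj)).2])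
    (key X₁ Z₁ a₁ c₁ (P₂.2.1.mono (ball_subset_ball n2)) B₁
      (fun y y' y'' => C₁ y (sub l1 y) y' (sub l1 y') y'' (sub l1 y'')))
    (key X₂ Z₂ a₂ c₂ (P₄.2.1.mono (ball_subset_ball n4)) B₂
      (fun y y' y'' => C₂ y (sub l2 y) y' (sub l2 y') y'' (sub l2 y'')))
  have hgood := ennreal_good p base v hclose hsep hlo hhi hreal
  have hqc : ∀ j, ContinuousOn (q j) (ball 0 δ) := by
    intro j
    fin_cases j
    · exact continuousOn_id
    · exact P₁.1.mono (ball_subset_ball n1)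
    · exact P₂.1.mono (ball_subset_ball n2)
    · exact P₃.1.mono (ball_subset_ball n3)
    · exact P₄.1.mono (ball_subset_ball n4)
  have hqi : ∀ j, InjOn (q j) (ball 0 δ) := by
    intro j
    fin_cases j
    · exact injOn_id _
    · exact P₁.2.1.mono (ball_subset_ball n1)
    · exact P₂.2.1.mono (ball_subset_ball n2)
    · exact P₃.2.1.mono (ball_subset_ball n3)
    · exact P₄.2.1.mono (ball_subset_ball n4)
  have hwc : ∀ j, ContinuousOn (w j) (ball 0 δ) := by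
    intro j
    fin_cases j
    · change ContinuousOn (fun y : V => 4 - 2 * ‖y‖ ^ 2) _
      fun_prop
    · exact fun y hy => (A₁ y (ball_subset_ball l1 hy)).2.2.2.2.1.continuousWithinAt
    · exact fun y hy => (A₁ y (ball_subset_ball l1 hy)).2.2.2.2.2.continuousWithinAt
    · exact fun y hy => (A₂ y (ball_subset_ball l2 hy)).2.2.2.2.1.continuousWithinAt
    · exact fun y hy => (A₂ y (ball_subset_ball l2 hy)).2.2.2.2.2.continuousWithinAt
  have hpm : ∀ j, Measurable (p j) := fun j => (hqc j).domRestrict.measurable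
  have hvm : ∀ j, Measurable (v j) := fun j => (hwc j).domRestrict.measurable
  let P : Fin 5 × ball (0 : V) δ → V := fun z => p z.1 z.2
  let u : Fin 5 × ball (0 : V) δ → ℝ≥0∞ := fun z => ENNReal.ofReal (v z.1 z.2 + 1)
  have hPm : Measurable P := measurable_from_prod_countable_right hpm
  have hum : Measurable u :=
    measurable_from_prod_countable_right fun j => ((hvm j).add_const 1).ennreal_ofReal
  have hPi : Function.Injective P := by
    rintro ⟨j, y⟩ ⟨k, y'⟩ h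
    by_cases hjk : j = k
    · subst hjk
      rw [Subtype.ext (hqi j y.2 y'.2 h)]
    · exact absurd h (cluster_inj p base hclose hsep hjk y y')
  have : StandardBorelSpace (ball (0 : V) δ) := measurableSet_ball.standardBorel
  have hPe : MeasurableEmbedding P := hPm.measurableEmbedding hPi
  let bump : ContDiffBump (0 : V) := ⟨δ / 4, δ / 2, by positivity, by linarith⟩
  let ρ : V → ℝ := bump.normed m
  have hρs : tsupport ρ ⊆ ball 0 δ := by
    rw [bump.tsupport_normed_eq]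
    exact closedBall_subset_ball (by change δ / 2 < δ; linarith)
  have hρc : ContDiff ℝ ((⊤ : ℕ∞) : WithTop ℕ∞) ρ := bump.contDiff_normed
  let νV : Measure V := m.withDensity (fun x => ENNReal.ofReal (ρ x))
  have hνV : νV univ = 1 := by
    rw [withDensity_apply _ MeasurableSet.univ, Measure.restrict_univ,
      ← ofReal_integral_eq_lintegral_ofReal bump.integrable_normed
        (Filter.Eventually.of_forall bump.nonneg_normed), bump.integral_normed, ENNReal.ofReal_one]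
  have hae : ∀ᵐ y ∂νV, y ∈ ball (0 : V) δ := by
    rw [ae_withDensity_iff hρc.continuous.measurable.ennreal_ofReal]
    refine Filter.Eventually.of_forall fun y hy => hρs (subset_tsupport _ ?_)
    intro h0
    apply hy
    rw [h0, ENNReal.ofReal_zero]
  let ν : Measure (ball (0 : V) δ) := νV.comap Subtype.val
  have hmapν : ν.map Subtype.val = νV := by
    rw [map_comap_subtype_coe measurableSet_ball, Measure.restrict_eq_self_of_ae_mem hae]
  have hνprob : IsProbabilityMeasure ν := by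
    constructor
    have := Measure.map_apply (μ := ν) measurable_subtype_coe MeasurableSet.univ
    rw [hmapν, hνV, preimage_univ] at this
    exact this.symm
  have hslice : ∀ j, ν.map (fun y => P (j, y)) = νV.map (q j) := by
    intro j
    have h1 : AEMeasurable (q j) (ν.map Subtype.val) := by
      rw [hmapν, ← Measure.restrict_eq_self_of_ae_mem hae]
      exact (hqc j).aemeasurable measurableSet_ball
    rw [← hmapν, AEMeasurable.map_map_of_aemeasurable h1 measurable_subtype_coe.aemeasurable]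
    rfl
  have hsd : ∀ j, SmoothDensity m (ν.map (fun y => P (j, y))) := by
    intro j
    rw [hslice]
    fin_cases j
    · refine ⟨ρ, hρc, bump.hasCompactSupport_normed, bump.nonneg_normed, ?_⟩
      exact Measure.map_id
    · exact P₁.2.2 ρ hρc bump.hasCompactSupport_normed bump.nonneg_normed
        (hρs.trans (ball_subset_ball n1))
    · exact P₂.2.2 ρ hρc bump.hasCompactSupport_normed bump.nonneg_normed
        (hρs.trans (ball_subset_ball n2))
    · exact P₃.2.2 ρ hρc bump.hasCompactSupport_normed bump.nonneg_normed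
        (hρs.trans (ball_subset_ball n3))
    · exact P₄.2.2 ρ hρc bump.hasCompactSupport_normed bump.nonneg_normed
        (hρs.trans (ball_subset_ball n4))
  have tight : ∀ (k l : Fin 5) (y : ball (0 : V) δ), (0 : Fin 5) ≠ k → (0 : Fin 5) ≠ l → k ≠ l →
      cR (p 0 y) (p k y) (p l y) = v 0 y + v k y + v l y →
      coulomb (P (0, y)) (P (k, y)) (P (l, y)) + 3 ≤ u (0, y) + u (k, y) + u (l, y) := by
    intro k l y hk hl hkl heq
    have n1 : 0 ≤ v 0 y + 1 := by linarith [hlo 0 y]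
    have n2 : 0 ≤ v k y + 1 := by linarith [hlo k y]
    have n3 : 0 ≤ v l y + 1 := by linarith [hlo l y]
    have hc0 : 0 ≤ cR (p 0 y) (p k y) (p l y) := by unfold cR; positivity
    have h3 : (3 : ℝ≥0∞) = ENNReal.ofReal 3 := by simp
    change coulomb (p 0 y) (p k y) (p l y) + 3 ≤ ENNReal.ofReal (v 0 y + 1)
      + ENNReal.ofReal (v k y + 1) + ENNReal.ofReal (v l y + 1)
    rw [← ENNReal.ofReal_add n1 n2, ← ENNReal.ofReal_add (add_nonneg n1 n2) n3,
      coulomb_eq (cluster_inj p base hclose hsep hk _ _) (cluster_inj p base hclose hsep hl _ _)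
      (cluster_inj p base hclose hsep hkl _ _), h3, ← ENNReal.ofReal_add hc0 (by norm_num)]
    exact ENNReal.ofReal_le_ofReal (by linarith)
  have hfinal := abstract_main ν hPe u hum 3 (ENNReal.ofReal 5) (by simp) (by simp)
    (fun z => ENNReal.ofReal_le_ofReal (by linarith [hhi z.1 z.2]))
    (fun z₁ z₂ z₃ => (hgood z₁.1 z₂.1 z₃.1 z₁.2 z₂.2 z₃.2).1)
    (fun z₁ z₂ z₃ => (hgood z₁.1 z₂.1 z₃.1 z₁.2 z₂.2 z₃.2).2)
    (fun y => tight 1 2 y (by decide) (by decide) (by decide) (B₁ y))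
    (fun y => tight 3 4 y (by decide) (by decide) (by decide) (B₂ y))
  exact ⟨mix ν P, ((((((hsd 0).add (hsd 0)).add (hsd 1)).add (hsd 2)).add (hsd 3)).add
    (hsd 4)).smul_six, mix_prob ν hPm, hfinal⟩

end Vale.Agent.P121
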